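import Mathlib

namespace Vale.Agent.H8

/-- Distance from `t` to the nearest integer. -/
noncomputable def nn (t : ℝ) : ℝ := |t - round t|

theorem nn_eq_norm (t : ℝ) : nn t = ‖(t : UnitAddCircle)‖ := by
  rw [nn, UnitAddCircle.norm_eq]

theorem nn_nonneg (t : ℝ) : 0 ≤ nn t := abs_nonneg _

theorem nn_le_half (t : ℝ) : nn t ≤ 1 / 2 := abs_sub_round t

theorem nn_neg (t : ℝ) : nn (-t) = nn t := by
  rw [nn_eq_norm, nn_eq_norm, AddCircle.coe_neg, norm_neg]

theorem nn_add_le (s t : ℝ) : nn (s + t) ≤ nn s + nn t := by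
  rw [nn_eq_norm, nn_eq_norm, nn_eq_norm, AddCircle.coe_add]
  exact norm_add_le _ _

theorem nn_sub_le (s t : ℝ) : nn (s - t) ≤ nn s + nn t := by
  rw [sub_eq_add_neg, ← nn_neg t]
  exact nn_add_le s (-t)

theorem nn_le_abs (t : ℝ) : nn t ≤ |t| := by
  have h := round_le t 0
  simpa [nn] using h

theorem nn_add_intCast (t : ℝ) (n : ℤ) : nn (t + n) = nn t := by
  rw [nn, nn, round_add_intCast]
  push_cast
  ring_nf

theorem nn_sub_intCast (t : ℝ) (n : ℤ) : nn (t - n) = nn t := by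
  have := nn_add_intCast t (-n)
  rw [Int.cast_neg, ← sub_eq_add_neg] at this
  exact this

theorem nn_sub_round (t : ℝ) : nn (t - round t) = nn t := nn_sub_intCast t (round t)

theorem nn_nsmul_le (n : ℕ) (t : ℝ) : nn (n * t) ≤ n * nn t := by
  rw [nn_eq_norm, nn_eq_norm]
  have h : ((n * t : ℝ) : UnitAddCircle) = n • (t : UnitAddCircle) := by
    rw [← AddCircle.coe_nsmul, nsmul_eq_mul]
  rw [h]
  exact norm_nsmul_le

end Vale.Agent.H8
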