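import Mathlib
import Vale.Agent.H8.Count
import Vale.Agent.H8.BA.Defs

namespace Vale.Agent.H8

/-- Integer-numerator form of the counting lemma `card_filter_round_lt`: for `m` coprime to `n`,
among the `n` points `y + m j / n` (`j < n`) at most `2 ρ n + 1` lie within `< ρ` of an
integer. -/
theorem blt_card_filter (n : ℕ) (m : ℤ) (hn : 0 < n) (hnm : IsCoprime (n : ℤ) m) (y ρ : ℝ)
    (hρ : 0 ≤ ρ) :
    (((Finset.range n).filter (fun j : ℕ => nn (y + (m : ℝ) * j / n) < ρ)).card : ℝ)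
      ≤ 2 * ρ * n + 1 := by
  set s := (Finset.range n).filter (fun j : ℕ => nn (y + (m : ℝ) * j / n) < ρ) with hs
  set f : ℕ → ℤ := fun j => n * round (y + (m : ℝ) * j / n) - m * j with hf
  have hn' : (0 : ℝ) < n := by exact_mod_cast hn
  have hinj : Set.InjOn f (s : Set ℕ) := by
    intro j hj j' hj' hjj'
    rw [Finset.mem_coe, hs, Finset.mem_filter, Finset.mem_range] at hj hj'
    simp only [hf] at hjj'
    have hdvd : (n : ℤ) ∣ m * ((j : ℤ) - j') := by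
      refine ⟨round (y + (m : ℝ) * j / n) - round (y + (m : ℝ) * j' / n), ?_⟩
      linarith
    have hdvd' : (n : ℤ) ∣ ((j : ℤ) - j') := hnm.dvd_of_dvd_mul_left hdvd
    have habs : |(j : ℤ) - j'| < n := by
      rw [abs_lt]
      constructor <;> omega
    have := Int.eq_zero_of_abs_lt_dvd hdvd' habs
    omega
  have hcard : (s.image f).card = s.card := Finset.card_image_of_injOn hinj
  rw [← hcard]
  have := card_int_Ioo_le (s.image f) (n * y - ρ * n) (n * y + ρ * n) (by nlinarith) ?_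
  · linarith
  · intro k hk
    rw [Finset.mem_image] at hk
    obtain ⟨j, hj, rfl⟩ := hk
    simp only [hs, Finset.mem_filter, Finset.mem_range] at hj
    obtain ⟨_, hj⟩ := hj
    rw [nn, abs_lt] at hj
    simp only [hf]
    push_cast
    have e : y + (m : ℝ) * j / n - round (y + (m : ℝ) * j / n)
        = (n * y - (n * round (y + (m : ℝ) * j / n) - m * j)) / n := by
      field_simp
      ring
    rw [e] at hj
    obtain ⟨h1, h2⟩ := hj
    rw [lt_div_iff₀ hn'] at h1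
    rw [div_lt_iff₀ hn'] at h2
    constructor <;> linarith

/-- Counting lemma for a shift `γ` of Diophantine type `τ` (`κ ≤ k^(1+τ) ‖k γ‖`): among `M`
consecutive natural numbers `k`, at most `4 w M + 3 M^τ / κ + 3` have `‖k γ - y‖ < w`. -/
theorem block_count_t (γ κ τ : ℝ) (hκ : 0 < κ) (hτ : 0 ≤ τ)
    (hγ : ∀ k : ℕ, 0 < k → κ ≤ (k : ℝ) ^ (1 + τ) * nn ((k : ℝ) * γ))
    (y w : ℝ) (hw : 0 ≤ w) (n₀ M : ℕ) (hM : 0 < M) (T : Finset ℕ)
    (hT : ∀ a ∈ T, n₀ ≤ a ∧ a < n₀ + M) :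
    ((T.filter (fun k : ℕ => nn ((k : ℝ) * γ - y) < w)).card : ℝ)
      ≤ 4 * w * M + 3 * (M : ℝ) ^ τ / κ + 3 := by
  obtain ⟨q, hq, hqM⟩ := Real.exists_rat_abs_sub_le_and_den_le γ hM
  have hcop : IsCoprime (q.den : ℤ) q.num := (Rat.isCoprime_num_den q).symm
  have hqcast : (q : ℝ) = (q.num : ℝ) / (q.den : ℝ) := Rat.cast_def q
  have hQpos : 0 < q.den := q.den_pos
  generalize q.den = Q at hq hqM hcop hqcast hQpos
  generalize q.num = p at hcop hqcast
  have hQR : (0 : ℝ) < Q := by exact_mod_cast hQpos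
  have hMR : (0 : ℝ) < M := by exact_mod_cast hM
  have hM1 : (0 : ℝ) < (M : ℝ) + 1 := by linarith
  have hQM : (Q : ℝ) ≤ M := by exact_mod_cast hqM
  obtain ⟨δ, hδ⟩ : ∃ δ : ℝ, δ = γ - q := ⟨_, rfl⟩
  have hδle : |δ| ≤ 1 / (((M : ℝ) + 1) * Q) := by rw [hδ]; exact hq
  have hγδ : γ = δ + (p : ℝ) / Q := by rw [hδ, hqcast]; ring
  -- step 2: the denominator is large
  have hnnQ : nn ((Q : ℝ) * γ) ≤ 1 / ((M : ℝ) + 1) := by
    have e : (Q : ℝ) * γ - ((p : ℤ) : ℝ) = Q * δ := by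
      rw [hγδ]
      field_simp
      ring
    have h1 : nn ((Q : ℝ) * γ) ≤ |(Q : ℝ) * γ - ((p : ℤ) : ℝ)| := by
      rw [← nn_sub_intCast ((Q : ℝ) * γ) p]
      exact nn_le_abs _
    rw [e, abs_mul, abs_of_pos hQR] at h1
    have h2 : (Q : ℝ) * |δ| ≤ Q * (1 / (((M : ℝ) + 1) * Q)) :=
      mul_le_mul_of_nonneg_left hδle hQR.le
    have h3 : (Q : ℝ) * (1 / (((M : ℝ) + 1) * Q)) = 1 / ((M : ℝ) + 1) := by
      field_simp
    linarith
  have hkey : κ * ((M : ℝ) + 1) ≤ Q * (M : ℝ) ^ τ := by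
    have h1 := hγ Q hQpos
    have h2 : (Q : ℝ) ^ (1 + τ) = Q * (Q : ℝ) ^ τ := by
      rw [Real.rpow_add hQR, Real.rpow_one]
    have h3 : (Q : ℝ) ^ τ ≤ (M : ℝ) ^ τ := Real.rpow_le_rpow hQR.le hQM hτ
    have h4 : 0 ≤ (M : ℝ) ^ τ := Real.rpow_nonneg hMR.le τ
    have h5 : (Q : ℝ) ^ (1 + τ) * nn ((Q : ℝ) * γ)
        ≤ Q * (M : ℝ) ^ τ * (1 / ((M : ℝ) + 1)) := by
      rw [h2]
      exact mul_le_mul (mul_le_mul_of_nonneg_left h3 hQR.le) hnnQ (nn_nonneg _)
        (mul_nonneg hQR.le h4)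
    have h6 : κ ≤ Q * (M : ℝ) ^ τ * (1 / ((M : ℝ) + 1)) := le_trans h1 h5
    calc κ * ((M : ℝ) + 1) ≤ Q * (M : ℝ) ^ τ * (1 / ((M : ℝ) + 1)) * ((M : ℝ) + 1) :=
          mul_le_mul_of_nonneg_right h6 hM1.le
      _ = Q * (M : ℝ) ^ τ := by field_simp
  have hMQ : (M : ℝ) / Q ≤ (M : ℝ) ^ τ / κ := by
    rw [div_le_div_iff₀ hQR hκ]
    nlinarith [hkey, hκ]
  -- step 3: reduction to residues modulo the denominator
  obtain ⟨y₀, hy₀⟩ : ∃ y₀ : ℝ, y₀ = (n₀ : ℝ) * γ - y := ⟨_, rfl⟩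
  set S := T.filter (fun k : ℕ => nn ((k : ℝ) * γ - y) < w) with hS
  set R := (Finset.range Q).filter (fun j : ℕ => nn (y₀ + (p : ℝ) * j / Q) < w + 1 / Q)
    with hR
  have hRcard : (R.card : ℝ) ≤ 2 * (w + 1 / Q) * Q + 1 :=
    blt_card_filter Q p hQpos hcop y₀ (w + 1 / Q) (by positivity)
  have hmaps : ∀ k ∈ S, (fun k : ℕ => (k - n₀) % Q) k ∈ R := by
    intro k hk
    obtain ⟨hkT, hkw⟩ := Finset.mem_filter.mp hk
    obtain ⟨hk1, hk2⟩ := hT k hkT
    show (k - n₀) % Q ∈ R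
    rw [hR, Finset.mem_filter, Finset.mem_range]
    refine ⟨Nat.mod_lt _ hQpos, ?_⟩
    obtain ⟨i, hi⟩ : ∃ i : ℕ, i = k - n₀ := ⟨_, rfl⟩
    rw [← hi]
    have hiM : i < M := by omega
    have hki : (k : ℝ) = (n₀ : ℝ) + i := by
      rw [hi, Nat.cast_sub hk1]
      ring
    have hdm0 : Q * (i / Q) + i % Q = i := Nat.div_add_mod i Q
    generalize i / Q = t at hdm0
    generalize i % Q = j at hdm0
    have hdm : (i : ℝ) = (Q : ℝ) * (t : ℝ) + (j : ℝ) := by
      exact_mod_cast hdm0.symm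
    have e : y₀ + (p : ℝ) * (j : ℝ) / Q
        = ((k : ℝ) * γ - y) - (i : ℝ) * δ - ((p * (t : ℤ) : ℤ) : ℝ) := by
      have h : (j : ℝ) = (i : ℝ) - (Q : ℝ) * (t : ℝ) := by linarith
      rw [hy₀, hki, hγδ, h]
      push_cast
      field_simp
      ring
    rw [e, nn_sub_intCast]
    have h1 : nn ((k : ℝ) * γ - y - (i : ℝ) * δ) ≤ nn ((k : ℝ) * γ - y) + nn ((i : ℝ) * δ) :=
      nn_sub_le _ _
    have h2 : nn ((i : ℝ) * δ) ≤ |(i : ℝ) * δ| := nn_le_abs _
    have h3 : |(i : ℝ) * δ| < 1 / Q := by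
      rw [abs_mul, abs_of_nonneg (Nat.cast_nonneg i)]
      have hiR : (i : ℝ) < (M : ℝ) + 1 := by
        have : (i : ℝ) < M := by exact_mod_cast hiM
        linarith
      calc (i : ℝ) * |δ| ≤ i * (1 / (((M : ℝ) + 1) * Q)) :=
            mul_le_mul_of_nonneg_left hδle (Nat.cast_nonneg i)
        _ < ((M : ℝ) + 1) * (1 / (((M : ℝ) + 1) * Q)) := by
            apply mul_lt_mul_of_pos_right hiR
            positivity
        _ = 1 / Q := by field_simp
    linarith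
  -- step 5: each residue class is hit at most `M / Q + 1` times
  have hfib : ∀ b ∈ R, (S.filter (fun k : ℕ => (k - n₀) % Q = b)).card ≤ M / Q + 1 := by
    intro b _
    have hinj : Set.InjOn (fun k : ℕ => (k - n₀) / Q)
        (S.filter (fun k : ℕ => (k - n₀) % Q = b) : Set ℕ) := by
      intro k hk k' hk' hkk'
      rw [Finset.mem_coe, Finset.mem_filter] at hk hk'
      obtain ⟨hkS, hkb⟩ := hk
      obtain ⟨hkS', hkb'⟩ := hk'
      have h1 := (hT k (Finset.mem_filter.mp hkS).1).1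
      have h2 := (hT k' (Finset.mem_filter.mp hkS').1).1
      have hkk'' : (k - n₀) / Q = (k' - n₀) / Q := hkk'
      have h5 : k - n₀ = k' - n₀ := by
        calc k - n₀ = Q * ((k - n₀) / Q) + (k - n₀) % Q := (Nat.div_add_mod _ _).symm
          _ = Q * ((k' - n₀) / Q) + (k' - n₀) % Q := by rw [hkk'', hkb, hkb']
          _ = k' - n₀ := Nat.div_add_mod _ _
      omega
    have hmaps2 : ∀ k ∈ S.filter (fun k : ℕ => (k - n₀) % Q = b),
        (fun k : ℕ => (k - n₀) / Q) k ∈ Finset.range (M / Q + 1) := by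
      intro k hk
      rw [Finset.mem_filter] at hk
      have h1 := hT k (Finset.mem_filter.mp hk.1).1
      rw [Finset.mem_range]
      have h2 : (k - n₀) / Q ≤ M / Q := Nat.div_le_div_right (by omega)
      exact Nat.lt_succ_of_le h2
    have h := Finset.card_le_card_of_injOn _ hmaps2 hinj
    rwa [Finset.card_range] at h
  have hcard : S.card ≤ (M / Q + 1) * R.card :=
    Finset.card_le_mul_card_image_of_maps_to hmaps (M / Q + 1) hfib
  have hcardR : (S.card : ℝ) ≤ (((M / Q : ℕ) : ℝ) + 1) * R.card := by exact_mod_cast hcard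
  have hdiv : ((M / Q : ℕ) : ℝ) ≤ (M : ℝ) / Q := Nat.cast_div_le
  have hR2 : (R.card : ℝ) ≤ 2 * w * Q + 3 := by
    have h : 2 * (w + 1 / (Q : ℝ)) * Q + 1 = 2 * w * Q + 3 := by
      field_simp
      ring
    linarith
  have hRnn : (0 : ℝ) ≤ R.card := Nat.cast_nonneg _
  have hMQnn : (0 : ℝ) ≤ (M : ℝ) / Q := by positivity
  calc (S.card : ℝ) ≤ (((M / Q : ℕ) : ℝ) + 1) * R.card := hcardR
    _ ≤ ((M : ℝ) / Q + 1) * (2 * w * Q + 3) :=
        mul_le_mul (by linarith) hR2 hRnn (by linarith)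
    _ = 2 * w * M + 2 * w * Q + 3 * ((M : ℝ) / Q) + 3 := by
        field_simp
        ring
    _ ≤ 4 * w * M + 3 * (M : ℝ) ^ τ / κ + 3 := by
        have h1 : 2 * w * Q ≤ 2 * w * M := by nlinarith
        have h2 : 3 * ((M : ℝ) / Q) ≤ 3 * (M : ℝ) ^ τ / κ := by
          rw [mul_div_assoc]
          linarith
        linarith

end Vale.Agent.H8
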