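import Mathlib
import Vale.Agent.H8.BA.Defs
import Vale.Agent.H8.BA.BlockT

namespace Vale.Agent.H8

/-- A finite set of positive naturals all bounded by `B` has at most `B` elements. -/
theorem abt_card_le (S : Finset ℕ) (B : ℝ) (hB : 0 ≤ B)
    (h : ∀ j ∈ S, 1 ≤ j ∧ (j : ℝ) ≤ B) : (S.card : ℝ) ≤ B := by
  have hsub : S ⊆ Finset.Icc 1 ⌊B⌋₊ := by
    intro j hj
    obtain ⟨h1, h2⟩ := h j hj
    exact Finset.mem_Icc.mpr ⟨h1, Nat.le_floor h2⟩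
  have hc := Finset.card_le_card hsub
  rw [Nat.card_Icc] at hc
  have h3 : (S.card : ℝ) ≤ (⌊B⌋₊ : ℝ) := by
    have h4 : S.card ≤ ⌊B⌋₊ := by omega
    exact_mod_cast h4
  exact le_trans h3 (Nat.floor_le hB)

/-- If `2 ^ j < x` then `j ≤ 2 * max 0 (log x)`. -/
theorem abt_log_bound (j : ℕ) (x : ℝ) (hx : (2 : ℝ) ^ j < x) :
    (j : ℝ) ≤ 2 * max 0 (Real.log x) := by
  have hpos : (0 : ℝ) < 2 ^ j := by positivity
  have h1 : Real.log ((2 : ℝ) ^ j) < Real.log x := Real.log_lt_log hpos hx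
  rw [Real.log_pow] at h1
  have h2 := Real.log_two_gt_d9
  have h3 : (j : ℝ) * (1 / 2) ≤ j * Real.log 2 :=
    mul_le_mul_of_nonneg_left (by linarith) (Nat.cast_nonneg j)
  have h4 : Real.log x ≤ max 0 (Real.log x) := le_max_right _ _
  linarith

/-- The dyadic block of an element `q ≥ 2 * lam * d` of the solution set, with the facts used
in the count. -/
theorem abt_elem (γ κ τ : ℝ) (hκ : 0 < κ) (hτ : 0 ≤ τ)
    (hγ : ∀ k : ℕ, 0 < k → κ ≤ (k : ℝ) ^ (1 + τ) * nn ((k : ℝ) * γ))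
    (d : ℕ) (lam : ℝ) (hlam : 0 < lam) (q : ℕ) (hqd : q < d)
    (hP : nn (((d : ℝ) - (q : ℝ)) * γ) < lam * (d : ℝ) / (q : ℝ))
    (h2 : 2 * (lam * d) ≤ (q : ℝ)) :
    1 ≤ Nat.log 2 ⌊(q : ℝ) / (lam * d)⌋₊ ∧
    (2 : ℝ) ^ (Nat.log 2 ⌊(q : ℝ) / (lam * d)⌋₊) * (lam * d) ≤ q ∧
    (q : ℝ) < 2 * (2 : ℝ) ^ (Nat.log 2 ⌊(q : ℝ) / (lam * d)⌋₊) * (lam * d) ∧
    (2 : ℝ) ^ (Nat.log 2 ⌊(q : ℝ) / (lam * d)⌋₊) < 1 / lam ∧
    (2 : ℝ) ^ (Nat.log 2 ⌊(q : ℝ) / (lam * d)⌋₊) < (d : ℝ) ^ (1 + τ) / κ ∧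
    nn ((q : ℝ) * γ - d * γ) < 1 / 2 ^ (Nat.log 2 ⌊(q : ℝ) / (lam * d)⌋₊) := by
  have hd : (0 : ℝ) < d := by exact_mod_cast (by omega : 0 < d)
  have hL : 0 < lam * d := mul_pos hlam hd
  have hqdR : (q : ℝ) < d := by exact_mod_cast hqd
  have hqpos : (0 : ℝ) < q := by linarith
  have hx2 : (2 : ℝ) ≤ (q : ℝ) / (lam * d) := by
    rw [le_div_iff₀ hL]
    exact h2
  have hn2 : 2 ≤ ⌊(q : ℝ) / (lam * d)⌋₊ := Nat.le_floor (by exact_mod_cast hx2)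
  have hnle : (⌊(q : ℝ) / (lam * d)⌋₊ : ℝ) ≤ (q : ℝ) / (lam * d) :=
    Nat.floor_le (le_of_lt (div_pos hqpos hL))
  have hlt : (q : ℝ) / (lam * d) < ⌊(q : ℝ) / (lam * d)⌋₊ + 1 := Nat.lt_floor_add_one _
  generalize ⌊(q : ℝ) / (lam * d)⌋₊ = n at hn2 hnle hlt ⊢
  have hj1 : 1 ≤ Nat.log 2 n := Nat.log_pos (by norm_num) hn2
  have hpow_le : 2 ^ Nat.log 2 n ≤ n := Nat.pow_log_le_self 2 (by omega)
  have hlt_pow : n < 2 ^ (Nat.log 2 n + 1) := Nat.lt_pow_succ_log_self (by norm_num) n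
  generalize Nat.log 2 n = j at hj1 hpow_le hlt_pow ⊢
  have hpow_pos : (0 : ℝ) < 2 ^ j := by positivity
  have hpow_leR : ((2 : ℝ) ^ j) ≤ (n : ℝ) := by exact_mod_cast hpow_le
  have hlt_powR : (n : ℝ) + 1 ≤ 2 * (2 : ℝ) ^ j := by
    have h1 : n + 1 ≤ 2 ^ (j + 1) := hlt_pow
    have h3 : ((n + 1 : ℕ) : ℝ) ≤ ((2 ^ (j + 1) : ℕ) : ℝ) := by exact_mod_cast h1
    push_cast at h3
    rw [pow_succ] at h3
    linarith
  have hlo : (2 : ℝ) ^ j * (lam * d) ≤ q := by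
    have h1 : ((2 : ℝ) ^ j) ≤ (q : ℝ) / (lam * d) := le_trans hpow_leR hnle
    rwa [le_div_iff₀ hL] at h1
  have hhi : (q : ℝ) < 2 * (2 : ℝ) ^ j * (lam * d) := by
    have h1 : (q : ℝ) / (lam * d) < 2 * (2 : ℝ) ^ j := lt_of_lt_of_le hlt hlt_powR
    rwa [div_lt_iff₀ hL] at h1
  have hi : (2 : ℝ) ^ j < 1 / lam := by
    rw [lt_div_iff₀ hlam]
    have h1 : (2 : ℝ) ^ j * lam * d < 1 * d := by nlinarith
    exact lt_of_mul_lt_mul_right h1 hd.le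
  have hw : lam * d / q ≤ 1 / 2 ^ j := by
    rw [div_le_div_iff₀ hqpos hpow_pos]
    linarith
  have hk : 0 < d - q := by omega
  have hkc : ((d - q : ℕ) : ℝ) = (d : ℝ) - q := Nat.cast_sub hqd.le
  have hγk := hγ (d - q) hk
  rw [hkc] at hγk
  have hnnlt : nn (((d : ℝ) - q) * γ) < 1 / 2 ^ j := lt_of_lt_of_le hP hw
  have hii : (2 : ℝ) ^ j < (d : ℝ) ^ (1 + τ) / κ := by
    rw [lt_div_iff₀ hκ]
    have hdq : (0 : ℝ) < d - q := by linarith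
    have hpw : (0 : ℝ) < ((d : ℝ) - q) ^ (1 + τ) := Real.rpow_pos_of_pos hdq _
    have h1 : κ < ((d : ℝ) - q) ^ (1 + τ) * (1 / 2 ^ j) :=
      lt_of_le_of_lt hγk (mul_lt_mul_of_pos_left hnnlt hpw)
    have hmono : ((d : ℝ) - q) ^ (1 + τ) ≤ (d : ℝ) ^ (1 + τ) :=
      Real.rpow_le_rpow hdq.le (by linarith) (by linarith)
    have h3 : κ * 2 ^ j < ((d : ℝ) - q) ^ (1 + τ) * (1 / 2 ^ j) * 2 ^ j :=
      mul_lt_mul_of_pos_right h1 hpow_pos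
    have h4 : ((d : ℝ) - q) ^ (1 + τ) * (1 / 2 ^ j) * 2 ^ j = ((d : ℝ) - q) ^ (1 + τ) := by
      field_simp
    rw [h4] at h3
    linarith
  have hiii : nn ((q : ℝ) * γ - d * γ) < 1 / 2 ^ j := by
    have h1 : (q : ℝ) * γ - d * γ = -(((d : ℝ) - q) * γ) := by ring
    rw [h1, nn_neg]
    exact hnnlt
  exact ⟨hj1, hlo, hhi, hi, hii, hiii⟩

/-- Dyadic-block count for a shift of Diophantine type `τ`: the number of `1 ≤ q' < d` with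
`‖(d - q') γ‖ < lam * d / q'`. -/
theorem A_bound_t (γ κ τ : ℝ) (hκ : 0 < κ) (hτ : 0 ≤ τ)
    (hγ : ∀ k : ℕ, 0 < k → κ ≤ (k : ℝ) ^ (1 + τ) * nn ((k : ℝ) * γ))
    (d : ℕ) (lam : ℝ) (hlam : 0 < lam) :
    (((Finset.Ico 1 d).filter
        (fun q' : ℕ => nn (((d : ℝ) - (q' : ℝ)) * γ) < lam * (d : ℝ) / (q' : ℝ))).card : ℝ)
      ≤ 2 * lam * d + (4 * lam * d) * (2 * max 0 (Real.log (1 / lam)))
        + (3 * (d : ℝ) ^ τ / κ + 5) * (2 * max 0 (Real.log ((d : ℝ) ^ (1 + τ) / κ))) := by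
  classical
  have hLnn : 0 ≤ lam * (d : ℝ) := mul_nonneg hlam.le (Nat.cast_nonneg d)
  generalize hSol : (Finset.Ico 1 d).filter
    (fun q' : ℕ => nn (((d : ℝ) - (q' : ℝ)) * γ) < lam * (d : ℝ) / (q' : ℝ)) = Sol
  have hmem : ∀ q ∈ Sol, 1 ≤ q ∧ q < d ∧
      nn (((d : ℝ) - (q : ℝ)) * γ) < lam * (d : ℝ) / (q : ℝ) := by
    intro q hq
    rw [← hSol, Finset.mem_filter, Finset.mem_Ico] at hq
    exact ⟨hq.1.1, hq.1.2, hq.2⟩
  have hsplit := Finset.card_filter_add_card_filter_not (s := Sol)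
    (fun q : ℕ => (q : ℝ) < 2 * (lam * d))
  have hS0 : ((Sol.filter (fun q : ℕ => (q : ℝ) < 2 * (lam * d))).card : ℝ) ≤ 2 * (lam * d) := by
    apply abt_card_le _ _ (by linarith)
    intro q hq
    rw [Finset.mem_filter] at hq
    exact ⟨(hmem q hq.1).1, hq.2.le⟩
  generalize hS1 : Sol.filter (fun q : ℕ => ¬ (q : ℝ) < 2 * (lam * d)) = S1 at hsplit
  have hS1d : ∀ q ∈ S1, q < d := by
    intro q hq
    rw [← hS1, Finset.mem_filter] at hq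
    exact (hmem q hq.1).2.1
  have helem : ∀ q ∈ S1, 1 ≤ Nat.log 2 ⌊(q : ℝ) / (lam * d)⌋₊ ∧
      (2 : ℝ) ^ (Nat.log 2 ⌊(q : ℝ) / (lam * d)⌋₊) * (lam * d) ≤ q ∧
      (q : ℝ) < 2 * (2 : ℝ) ^ (Nat.log 2 ⌊(q : ℝ) / (lam * d)⌋₊) * (lam * d) ∧
      (2 : ℝ) ^ (Nat.log 2 ⌊(q : ℝ) / (lam * d)⌋₊) < 1 / lam ∧
      (2 : ℝ) ^ (Nat.log 2 ⌊(q : ℝ) / (lam * d)⌋₊) < (d : ℝ) ^ (1 + τ) / κ ∧
      nn ((q : ℝ) * γ - d * γ) < 1 / 2 ^ (Nat.log 2 ⌊(q : ℝ) / (lam * d)⌋₊) := by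
    intro q hq
    rw [← hS1, Finset.mem_filter] at hq
    obtain ⟨hqS, hq2⟩ := hq
    obtain ⟨_, hqd, hP⟩ := hmem q hqS
    exact abt_elem γ κ τ hκ hτ hγ d lam hlam q hqd hP (not_lt.mp hq2)
  generalize hjf : (fun q : ℕ => Nat.log 2 ⌊(q : ℝ) / (lam * d)⌋₊) = jf
  have helem' : ∀ q ∈ S1, 1 ≤ jf q ∧ (2 : ℝ) ^ (jf q) * (lam * d) ≤ q ∧
      (q : ℝ) < 2 * (2 : ℝ) ^ (jf q) * (lam * d) ∧ (2 : ℝ) ^ (jf q) < 1 / lam ∧
      (2 : ℝ) ^ (jf q) < (d : ℝ) ^ (1 + τ) / κ ∧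
      nn ((q : ℝ) * γ - d * γ) < 1 / 2 ^ (jf q) := by
    intro q hq
    rw [← hjf]
    exact helem q hq
  have hfiber : ∀ j ∈ S1.image jf,
      ((S1.filter (fun q => jf q = j)).card : ℝ) ≤ 4 * (lam * d) + 3 * (d : ℝ) ^ τ / κ + 5 := by
    intro j hj
    obtain ⟨q0, hq0, hj0⟩ := Finset.mem_image.mp hj
    have hq0' := helem' q0 hq0
    rw [hj0] at hq0'
    have hj1 : 1 ≤ j := hq0'.1
    have hpow_pos : (0 : ℝ) < 2 ^ j := by positivity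
    have hLpos : 0 < lam * (d : ℝ) := by
      have h1 := hq0'.2.2.1
      have h2 := hq0'.2.1
      by_contra hcon
      have h3 : lam * (d : ℝ) = 0 := le_antisymm (not_lt.mp hcon) hLnn
      rw [h3] at h1 h2
      linarith
    have hXpos : 0 < (2 : ℝ) ^ j * (lam * d) := mul_pos hpow_pos hLpos
    generalize hM : ⌈(2 : ℝ) ^ j * (lam * d)⌉₊ = M
    have hMpos : 0 < M := by
      rw [← hM]
      exact Nat.ceil_pos.mpr hXpos
    have hMle : (2 : ℝ) ^ j * (lam * d) ≤ (M : ℝ) := by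
      rw [← hM]
      exact Nat.le_ceil _
    have hMlt : (M : ℝ) < (2 : ℝ) ^ j * (lam * d) + 1 := by
      rw [← hM]
      exact Nat.ceil_lt_add_one hXpos.le
    have hMq : ∀ a : ℕ, (2 : ℝ) ^ j * (lam * d) ≤ (a : ℝ) → M ≤ a := by
      intro a ha
      rw [← hM]
      exact Nat.ceil_le.mpr ha
    have hMd : (M : ℝ) ≤ (d : ℝ) := by
      have h1 : M ≤ q0 := hMq q0 hq0'.2.1
      have h2 : q0 < d := hS1d q0 hq0
      exact_mod_cast (by omega : M ≤ d)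
    have hT : ∀ a ∈ S1.filter (fun q => jf q = j), M ≤ a ∧ a < M + M := by
      intro a ha
      rw [Finset.mem_filter] at ha
      have h1 := (helem' a ha.1).2.2.1
      have h2 := (helem' a ha.1).2.1
      rw [ha.2] at h1 h2
      refine ⟨hMq a h2, ?_⟩
      have h3 : (a : ℝ) < (M : ℝ) + (M : ℝ) := by linarith
      exact_mod_cast h3
    have hbc := block_count_t γ κ τ hκ hτ hγ ((d : ℝ) * γ) (1 / 2 ^ j) (by positivity) M M hMpos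
      (S1.filter (fun q => jf q = j)) hT
    have hfe : (S1.filter (fun q => jf q = j)).filter
        (fun k : ℕ => nn ((k : ℝ) * γ - (d : ℝ) * γ) < 1 / 2 ^ j) =
        S1.filter (fun q => jf q = j) := by
      apply Finset.filter_true_of_mem
      intro a ha
      rw [Finset.mem_filter] at ha
      have h1 := (helem' a ha.1).2.2.2.2.2
      rw [ha.2] at h1
      exact h1
    rw [hfe] at hbc
    have hw2 : (1 : ℝ) / 2 ^ j ≤ 1 / 2 := by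
      have h2 : (2 : ℝ) ^ 1 ≤ 2 ^ j := pow_le_pow_right₀ (by norm_num) hj1
      rw [div_le_div_iff₀ hpow_pos (by norm_num)]
      linarith
    have h7 : 4 * (1 / 2 ^ j) * (M : ℝ) ≤ 4 * (lam * d) + 2 := by
      have h1 : (1 / (2 : ℝ) ^ j) * (M : ℝ) ≤ (1 / (2 : ℝ) ^ j) * ((2 : ℝ) ^ j * (lam * d) + 1) :=
        mul_le_mul_of_nonneg_left hMlt.le (by positivity)
      have e : (1 / (2 : ℝ) ^ j) * ((2 : ℝ) ^ j * (lam * d) + 1) = lam * d + 1 / 2 ^ j := by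
        field_simp
      linarith
    have h8 : 3 * (M : ℝ) ^ τ / κ ≤ 3 * (d : ℝ) ^ τ / κ := by
      have h1 : (M : ℝ) ^ τ ≤ (d : ℝ) ^ τ := Real.rpow_le_rpow (Nat.cast_nonneg M) hMd hτ
      exact div_le_div_of_nonneg_right (by linarith) hκ.le
    linarith
  have himg1 : ((S1.image jf).card : ℝ) ≤ 2 * max 0 (Real.log (1 / lam)) := by
    apply abt_card_le _ _ (mul_nonneg (by norm_num) (le_max_left _ _))
    intro j hj
    obtain ⟨q0, hq0, hj0⟩ := Finset.mem_image.mp hj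
    have h := helem' q0 hq0
    rw [hj0] at h
    exact ⟨h.1, abt_log_bound j _ h.2.2.2.1⟩
  have himg2 : ((S1.image jf).card : ℝ) ≤ 2 * max 0 (Real.log ((d : ℝ) ^ (1 + τ) / κ)) := by
    apply abt_card_le _ _ (mul_nonneg (by norm_num) (le_max_left _ _))
    intro j hj
    obtain ⟨q0, hq0, hj0⟩ := Finset.mem_image.mp hj
    have h := helem' q0 hq0
    rw [hj0] at h
    exact ⟨h.1, abt_log_bound j _ h.2.2.2.2.1⟩
  have hS1card : (S1.card : ℝ) ≤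
      (S1.image jf).card * (4 * (lam * d) + 3 * (d : ℝ) ^ τ / κ + 5) := by
    rw [Finset.card_eq_sum_card_image jf S1, Nat.cast_sum]
    have h1 := Finset.sum_le_card_nsmul (S1.image jf)
      (fun j => ((S1.filter (fun q => jf q = j)).card : ℝ))
      (4 * (lam * d) + 3 * (d : ℝ) ^ τ / κ + 5) hfiber
    rwa [nsmul_eq_mul] at h1
  have hcoef : 0 ≤ 4 * (lam * (d : ℝ)) := by linarith
  have hcoef2 : 0 ≤ 3 * (d : ℝ) ^ τ / κ + 5 := by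
    have h1 : 0 ≤ (d : ℝ) ^ τ := Real.rpow_nonneg (Nat.cast_nonneg d) τ
    have h2 : 0 ≤ 3 * (d : ℝ) ^ τ / κ := div_nonneg (by linarith) hκ.le
    linarith
  have htot : (Sol.card : ℝ) =
      ((Sol.filter (fun q : ℕ => (q : ℝ) < 2 * (lam * d))).card : ℝ) + (S1.card : ℝ) := by
    rw [← hsplit]
    push_cast
    rfl
  rw [htot]
  have h6 := mul_le_mul_of_nonneg_left himg1 hcoef
  have h9 := mul_le_mul_of_nonneg_left himg2 hcoef2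
  have e1 : 2 * lam * (d : ℝ) = 2 * (lam * d) := by ring
  have e3 : 4 * lam * (d : ℝ) = 4 * (lam * d) := by ring
  rw [e1, e3]
  have e2 : ((S1.image jf).card : ℝ) * (4 * (lam * d) + 3 * (d : ℝ) ^ τ / κ + 5) =
      4 * (lam * d) * ((S1.image jf).card : ℝ) +
        (3 * (d : ℝ) ^ τ / κ + 5) * ((S1.image jf).card : ℝ) := by ring
  rw [e2] at hS1card
  linarith

end Vale.Agent.H8
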