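import Mathlib

namespace Vale.Agent.H8

/-- The number of multiples of `d` in `[A, 2A)` is at most `2A/d`. -/
lemma bkm_card_le (A d : ℕ) :
    ((Finset.filter (fun q => d ∣ q) (Finset.Ico A (2 * A))).card : ℝ)
      ≤ 2 * (A : ℝ) / (d : ℝ) := by
  have h1 : (Finset.filter (fun q => d ∣ q) (Finset.Ico A (2 * A))).card ≤ (2 * A) / d := by
    calc (Finset.filter (fun q => d ∣ q) (Finset.Ico A (2 * A))).card
        ≤ (Finset.filter (fun q => d ∣ q) (Finset.Ioc 0 (2 * A))).card := by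
          apply Finset.card_le_card
          intro q hq
          simp only [Finset.mem_filter, Finset.mem_Ico, Finset.mem_Ioc] at hq ⊢
          exact ⟨⟨by omega, by omega⟩, hq.2⟩
      _ = (2 * A) / d := Nat.Ioc_filter_dvd_card_eq_div (2 * A) d
  calc ((Finset.filter (fun q => d ∣ q) (Finset.Ico A (2 * A))).card : ℝ)
      ≤ ((2 * A / d : ℕ) : ℝ) := by exact_mod_cast h1
    _ ≤ ((2 * A : ℕ) : ℝ) / (d : ℝ) := Nat.cast_div_le
    _ = 2 * (A : ℝ) / (d : ℝ) := by push_cast; ring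

/-- Termwise bound: the quotient of `1 + log d` by `d^(2-τ)` is at most `C / d^(1+δ)`,
where `δ = (1-τ)/2`. -/
lemma bkm_term_le (τ : ℝ) (hτ1 : τ < 1) (d : ℕ) (hd : 1 ≤ d) :
    (1 + Real.log (d : ℝ)) / (d : ℝ) ^ (1 - τ) / (d : ℝ)
      ≤ (1 + 2 / (1 - τ)) * (1 / (d : ℝ) ^ (1 + (1 - τ) / 2)) := by
  have hδpos : 0 < (1 - τ) / 2 := by linarith
  have hd1 : (1 : ℝ) ≤ d := by exact_mod_cast hd
  have hd0 : (0 : ℝ) < d := by linarith
  have h1 : Real.log (d : ℝ) ≤ (d : ℝ) ^ ((1 - τ) / 2) / ((1 - τ) / 2) :=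
    Real.log_le_rpow_div hd0.le hδpos
  have h2 : (1 : ℝ) ≤ (d : ℝ) ^ ((1 - τ) / 2) := Real.one_le_rpow hd1 hδpos.le
  have hC : 1 + 2 / (1 - τ) = 1 + 1 / ((1 - τ) / 2) := by
    rw [one_div_div]
  have h3 : 1 + Real.log (d : ℝ) ≤ (1 + 2 / (1 - τ)) * (d : ℝ) ^ ((1 - τ) / 2) := by
    have e : (d : ℝ) ^ ((1 - τ) / 2) / ((1 - τ) / 2)
        = (1 / ((1 - τ) / 2)) * (d : ℝ) ^ ((1 - τ) / 2) := by ring
    rw [hC, add_mul, one_mul, ← e]
    linarith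
  have h4 : (d : ℝ) ^ (1 - τ) * (d : ℝ)
      = (d : ℝ) ^ ((1 - τ) / 2) * (d : ℝ) ^ (1 + (1 - τ) / 2) := by
    rw [← Real.rpow_add hd0, ← Real.rpow_add_one hd0.ne']
    congr 1
    ring
  have hp1 : 0 < (d : ℝ) ^ ((1 - τ) / 2) := Real.rpow_pos_of_pos hd0 _
  have hp2 : 0 < (d : ℝ) ^ (1 + (1 - τ) / 2) := Real.rpow_pos_of_pos hd0 _
  rw [div_div, h4, div_le_iff₀ (mul_pos hp1 hp2)]
  calc 1 + Real.log (d : ℝ) ≤ (1 + 2 / (1 - τ)) * (d : ℝ) ^ ((1 - τ) / 2) := h3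
    _ = (1 + 2 / (1 - τ)) * (1 / (d : ℝ) ^ (1 + (1 - τ) / 2))
          * ((d : ℝ) ^ ((1 - τ) / 2) * (d : ℝ) ^ (1 + (1 - τ) / 2)) := by
        field_simp

/-- Swapping the divisor sum over a block `[A, 2A)`. -/
lemma bkm_swap (f : ℕ → ℝ) (A : ℕ) :
    ∑ q ∈ Finset.Ico A (2 * A), ∑ d ∈ q.divisors, f d
      = ∑ d ∈ Finset.Ico 1 (2 * A),
          f d * ((Finset.filter (fun q => d ∣ q) (Finset.Ico A (2 * A))).card : ℝ) := by
  have h1 : ∀ q ∈ Finset.Ico A (2 * A), ∑ d ∈ q.divisors, f d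
      = ∑ d ∈ Finset.Ico 1 (2 * A), if d ∣ q then f d else 0 := by
    intro q hq
    rw [Finset.mem_Ico] at hq
    rw [← Finset.sum_filter]
    refine Finset.sum_congr ?_ (fun _ _ => rfl)
    ext d
    simp only [Nat.mem_divisors, Finset.mem_filter, Finset.mem_Ico]
    constructor
    · rintro ⟨hdq, _⟩
      have h2 := Nat.le_of_dvd (by omega) hdq
      have h3 : 1 ≤ d := Nat.pos_of_dvd_of_pos hdq (by omega)
      exact ⟨⟨h3, by omega⟩, hdq⟩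
    · rintro ⟨_, hdq⟩
      exact ⟨hdq, by omega⟩
  rw [Finset.sum_congr rfl h1, Finset.sum_comm]
  refine Finset.sum_congr rfl fun d _ => ?_
  rw [← Finset.sum_filter, Finset.sum_const, nsmul_eq_mul, mul_comm]

/-- The block bound for an arbitrary block `[A, 2A)`. -/
lemma bkm_block (τ : ℝ) (hτ1 : τ < 1) (A : ℕ) (hA : 1 ≤ A) :
    ∑ q ∈ Finset.Ico A (2 * A),
        ∑ d ∈ q.divisors, (1 + Real.log (d : ℝ)) / (d : ℝ) ^ (1 - τ)
      ≤ 2 * (1 + 2 / (1 - τ)) * (∑' d : ℕ, 1 / (d : ℝ) ^ (1 + (1 - τ) / 2)) * (A : ℝ) := by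
  have hsum : Summable (fun d : ℕ => 1 / (d : ℝ) ^ (1 + (1 - τ) / 2)) :=
    Real.summable_one_div_nat_rpow.mpr (by linarith)
  have hC0 : 0 ≤ 1 + 2 / (1 - τ) := by
    have h : 0 < 1 - τ := by linarith
    positivity
  have hf0 : ∀ d : ℕ, 1 ≤ d → 0 ≤ (1 + Real.log (d : ℝ)) / (d : ℝ) ^ (1 - τ) := by
    intro d hd
    have hd1 : (1 : ℝ) ≤ d := by exact_mod_cast hd
    have h := Real.log_nonneg hd1
    have hp : 0 < (d : ℝ) ^ (1 - τ) := Real.rpow_pos_of_pos (by linarith) _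
    positivity
  rw [bkm_swap _ A]
  calc ∑ d ∈ Finset.Ico 1 (2 * A), (1 + Real.log (d : ℝ)) / (d : ℝ) ^ (1 - τ)
          * ((Finset.filter (fun q => d ∣ q) (Finset.Ico A (2 * A))).card : ℝ)
      ≤ ∑ d ∈ Finset.Ico 1 (2 * A), (1 + Real.log (d : ℝ)) / (d : ℝ) ^ (1 - τ)
          * (2 * (A : ℝ) / (d : ℝ)) := by
        refine Finset.sum_le_sum fun d hd => ?_
        rw [Finset.mem_Ico] at hd
        exact mul_le_mul_of_nonneg_left (bkm_card_le A d) (hf0 d hd.1)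
    _ = 2 * (A : ℝ) * ∑ d ∈ Finset.Ico 1 (2 * A),
          (1 + Real.log (d : ℝ)) / (d : ℝ) ^ (1 - τ) / (d : ℝ) := by
        rw [Finset.mul_sum]
        refine Finset.sum_congr rfl fun d _ => ?_
        ring
    _ ≤ 2 * (A : ℝ) * ∑ d ∈ Finset.Ico 1 (2 * A),
          (1 + 2 / (1 - τ)) * (1 / (d : ℝ) ^ (1 + (1 - τ) / 2)) := by
        refine mul_le_mul_of_nonneg_left (Finset.sum_le_sum fun d hd => ?_) (by positivity)
        rw [Finset.mem_Ico] at hd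
        exact bkm_term_le τ hτ1 d hd.1
    _ ≤ 2 * (A : ℝ) * ((1 + 2 / (1 - τ)) * ∑' d : ℕ, 1 / (d : ℝ) ^ (1 + (1 - τ) / 2)) := by
        refine mul_le_mul_of_nonneg_left ?_ (by positivity)
        rw [← Finset.mul_sum]
        refine mul_le_mul_of_nonneg_left ?_ hC0
        exact hsum.sum_le_tsum _ (fun d _ => by positivity)
    _ = 2 * (1 + 2 / (1 - τ)) * (∑' d : ℕ, 1 / (d : ℝ) ^ (1 + (1 - τ) / 2)) * (A : ℝ) := by
        ring

/-- Mean value of the divisor weight over a dyadic block: for `τ < 1` the sums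
`∑_{2^k ≤ q < 2^(k+1)} ∑_{d ∣ q} (1 + log d) / d^(1-τ)` are `O(2^k)`. -/
theorem divLogT_block_le (τ : ℝ) (hτ : 0 ≤ τ) (hτ1 : τ < 1) :
    ∃ M : ℝ, 0 ≤ M ∧ ∀ k : ℕ,
      ∑ q ∈ Finset.Ico ((2 : ℕ) ^ k) ((2 : ℕ) ^ (k + 1)),
          ∑ d ∈ q.divisors, (1 + Real.log (d : ℝ)) / (d : ℝ) ^ (1 - τ)
        ≤ M * (2 : ℝ) ^ k := by
  have h0 : 0 ≤ τ := hτ
  have hpos : 0 < 1 - τ := by linarith
  have hZ0 : 0 ≤ ∑' d : ℕ, 1 / (d : ℝ) ^ (1 + (1 - τ) / 2) :=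
    tsum_nonneg fun d => by positivity
  refine ⟨2 * (1 + 2 / (1 - τ)) * (∑' d : ℕ, 1 / (d : ℝ) ^ (1 + (1 - τ) / 2)),
    by positivity, fun k => ?_⟩
  have h := bkm_block τ hτ1 (2 ^ k) Nat.one_le_two_pow
  rw [pow_succ']
  exact_mod_cast h

end Vale.Agent.H8
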