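import Mathlib
import Vale.Agent.H8.Overlap
import Vale.Agent.H8.BA.Defs

namespace Vale.Agent.H8

open MeasureTheory Set Filter
open scoped ENNReal

/-- If the two sets `‖q x - γ‖ < ρ` and `‖r x - γ‖ < ρ'` meet, then `(r' - q') γ` is close to an
integer, where `q = g q'`, `r = g r'`, `g = gcd q r`. -/
theorem inter_nonempty_cond (q r : ℕ) (hr : 0 < r) (γ ρ ρ' : ℝ)
    (h : (arcSet q (γ : UnitAddCircle) ρ ∩ arcSet r (γ : UnitAddCircle) ρ').Nonempty) :
    nn ((((r / Nat.gcd q r : ℕ) : ℝ) - ((q / Nat.gcd q r : ℕ) : ℝ)) * γ)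
      < ((r / Nat.gcd q r : ℕ) : ℝ) * ρ + ((q / Nat.gcd q r : ℕ) : ℝ) * ρ' := by
  obtain ⟨x, hx1, hx2⟩ := h
  simp only [arcSet, mem_ofPred_eq] at hx1 hx2
  set g := Nat.gcd q r with hg
  have hg0 : 0 < g := Nat.gcd_pos_of_pos_right q hr
  set q' := q / g with hq'
  set r' := r / g with hr'
  have hqg : q' * g = q := Nat.div_mul_cancel (Nat.gcd_dvd_left q r)
  have hrg : r' * g = r := Nat.div_mul_cancel (Nat.gcd_dvd_right q r)
  have hr'0 : 0 < r' := by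
    rcases Nat.eq_zero_or_pos r' with h0 | h0
    · rw [h0, zero_mul] at hrg; omega
    · exact h0
  have hcross : r' * q = q' * r := by
    rw [← hqg, ← hrg]; ring
  set a : UnitAddCircle := q • x - (γ : UnitAddCircle) with ha
  set b : UnitAddCircle := r • x - (γ : UnitAddCircle) with hb
  have hkey : ((((r' : ℝ) - (q' : ℝ)) * γ : ℝ) : UnitAddCircle) = q' • b - r' • a := by
    have e1 : ((((r' : ℝ) - (q' : ℝ)) * γ : ℝ) : UnitAddCircle)
        = r' • (γ : UnitAddCircle) - q' • (γ : UnitAddCircle) := by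
      rw [sub_mul, AddCircle.coe_sub, ← nsmul_eq_mul, ← nsmul_eq_mul, AddCircle.coe_nsmul,
        AddCircle.coe_nsmul]
    rw [e1, ha, hb, nsmul_sub, nsmul_sub, ← mul_nsmul', ← mul_nsmul', hcross]
    abel
  rw [nn_eq_norm, hkey]
  have h1 : ‖q' • b - r' • a‖ ≤ ‖q' • b‖ + ‖r' • a‖ := norm_sub_le _ _
  have h2 : ‖q' • b‖ ≤ q' * ‖b‖ := norm_nsmul_le
  have h3 : ‖r' • a‖ ≤ r' * ‖a‖ := norm_nsmul_le
  have h4 : (r' : ℝ) * ‖a‖ < r' * ρ := by
    have : (0 : ℝ) < r' := by exact_mod_cast hr'0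
    exact mul_lt_mul_of_pos_left hx1 this
  have h5 : (q' : ℝ) * ‖b‖ ≤ q' * ρ' :=
    mul_le_mul_of_nonneg_left hx2.le (Nat.cast_nonneg _)
  linarith

/-- Pair weight for a fixed shift `γ`: the gcd weight, switched on only when the Diophantine
overlap condition holds. -/
noncomputable def baWeight (γ : ℝ) (ψ : ℕ → ℝ) (q r : ℕ) : ℝ :=
  if nn ((((r / Nat.gcd q r : ℕ) : ℝ) - ((q / Nat.gcd q r : ℕ) : ℝ)) * γ)
      < ((r / Nat.gcd q r : ℕ) : ℝ) * ψ q + ((q / Nat.gcd q r : ℕ) : ℝ) * ψ r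
  then (Nat.gcd q r : ℝ) * min (ψ q / q) (ψ r / r) else 0

theorem baWeight_nonneg (γ : ℝ) (ψ : ℕ → ℝ) (h0 : ∀ q, 0 ≤ ψ q) (q r : ℕ) :
    0 ≤ baWeight γ ψ q r := by
  unfold baWeight
  split_ifs
  · have h1 : 0 ≤ ψ q / q := div_nonneg (h0 q) (Nat.cast_nonneg q)
    have h2 : 0 ≤ ψ r / r := div_nonneg (h0 r) (Nat.cast_nonneg r)
    have h3 : 0 ≤ min (ψ q / q) (ψ r / r) := le_min h1 h2
    positivity
  · exact le_rfl

/-- Overlap estimate with the Diophantine weight. -/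
theorem overlap_ba (γ : ℝ) (ψ : ℕ → ℝ) (h0 : ∀ q, 0 ≤ ψ q) (h2 : ∀ q, ψ q ≤ 1 / 2)
    (q r : ℕ) (hq : 0 < q) (hqr : q < r) :
    (volume : Measure UnitAddCircle).real
        (arcSet q (γ : UnitAddCircle) (ψ q) ∩ arcSet r (γ : UnitAddCircle) (ψ r))
      ≤ (2 * ψ q) * (2 * ψ r) + 2 * baWeight γ ψ q r := by
  have hr : 0 < r := by omega
  by_cases hne : (arcSet q (γ : UnitAddCircle) (ψ q) ∩ arcSet r (γ : UnitAddCircle) (ψ r)).Nonempty
  · have hcond := inter_nonempty_cond q r hr γ (ψ q) (ψ r) hne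
    have hov := overlap_real_min q r hq hr (γ : UnitAddCircle) (γ : UnitAddCircle) (ψ q) (ψ r)
      (h0 q) (h2 q) (h0 r) (h2 r)
    rw [measureReal_def]
    unfold baWeight
    rw [if_pos hcond]
    linarith
  · rw [not_nonempty_iff_eq_empty] at hne
    rw [hne, measureReal_empty]
    have := baWeight_nonneg γ ψ h0 q r
    have h1 := h0 q
    have h2' := h0 r
    nlinarith

end Vale.Agent.H8
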