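import Mathlib
import Vale.Agent.H8.BA.CoreW
import Vale.Agent.H8.BA.OverlapBA

namespace Vale.Agent.H8

open MeasureTheory Set Filter

/-- The Diophantine overlap condition with `ψ ≤ c / q` implies the condition used in `per_r`. -/
theorem ba_cond_imp (c : ℝ) (ψ : ℕ → ℝ) (hc : 0 < c)
    (hcq : ∀ q : ℕ, 0 < q → ψ q ≤ c / q) (q r : ℕ) (hq : 0 < q) (hqr : q < r) :
    ((r / Nat.gcd q r : ℕ) : ℝ) * ψ q + ((q / Nat.gcd q r : ℕ) : ℝ) * ψ r
      ≤ 2 * c / (Nat.gcd q r : ℝ) * ((r / Nat.gcd q r : ℕ) : ℝ) / ((q / Nat.gcd q r : ℕ) : ℝ) := by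
  have hr : 0 < r := by omega
  set g := Nat.gcd q r with hg
  have hg0 : 0 < g := Nat.gcd_pos_of_pos_left r hq
  set q' := q / g with hq'
  set r' := r / g with hr'
  have hqg : q' * g = q := Nat.div_mul_cancel (Nat.gcd_dvd_left q r)
  have hrg : r' * g = r := Nat.div_mul_cancel (Nat.gcd_dvd_right q r)
  have hq'0 : 0 < q' := by
    rcases Nat.eq_zero_or_pos q' with h0 | h0
    · rw [h0, zero_mul] at hqg; omega
    · exact h0
  have hq'r' : q' ≤ r' := by
    by_contra hlt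
    rw [not_le] at hlt
    have : r' * g < q' * g := Nat.mul_lt_mul_of_pos_right hlt hg0
    omega
  have hG : (0 : ℝ) < g := by exact_mod_cast hg0
  have hQ : (0 : ℝ) < q' := by exact_mod_cast hq'0
  have hQR : (q' : ℝ) ≤ r' := by exact_mod_cast hq'r'
  have hR : (0 : ℝ) < r' := lt_of_lt_of_le hQ hQR
  have e1 : (q : ℝ) = q' * g := by rw [← hqg]; push_cast; ring
  have e2 : (r : ℝ) = r' * g := by rw [← hrg]; push_cast; ring
  have h1 : ψ q ≤ c / ((q' : ℝ) * g) := by rw [← e1]; exact hcq q hq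
  have h2 : ψ r ≤ c / ((r' : ℝ) * g) := by rw [← e2]; exact hcq r hr
  have h3 : (r' : ℝ) * ψ q ≤ c / g * (r' / q') := by
    calc (r' : ℝ) * ψ q ≤ r' * (c / ((q' : ℝ) * g)) := mul_le_mul_of_nonneg_left h1 hR.le
      _ = c / g * (r' / q') := by field_simp
  have h4 : (q' : ℝ) * ψ r ≤ c / g * (r' / q') := by
    calc (q' : ℝ) * ψ r ≤ q' * (c / ((r' : ℝ) * g)) := mul_le_mul_of_nonneg_left h2 hQ.le
      _ = c / g * (q' / r') := by field_simp
      _ ≤ c / g * (r' / q') := by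
        refine mul_le_mul_of_nonneg_left ?_ (by positivity)
        rw [div_le_div_iff₀ hR hQ]
        nlinarith
  calc (r' : ℝ) * ψ q + (q' : ℝ) * ψ r ≤ c / g * (r' / q') + c / g * (r' / q') := add_le_add h3 h4
    _ = 2 * c / g * r' / q' := by ring

/-- Inner sum bound: the weights of the pairs `(q, r)`, `q < r`, are controlled by the
gcd-weighted count of `per_r`. -/
theorem sum_baWeight_le (γ c : ℝ) (ψ : ℕ → ℝ) (h0 : ∀ q, 0 ≤ ψ q) (hc : 0 < c)
    (hcq : ∀ q : ℕ, 0 < q → ψ q ≤ c / q) (r : ℕ) (hr : 0 < r) :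
    ∑ q ∈ Finset.range r, baWeight γ ψ q r
      ≤ (ψ r / r) * ∑ q ∈ Finset.Ico 1 r,
        (if nn ((((r / Nat.gcd q r : ℕ) : ℝ) - ((q / Nat.gcd q r : ℕ) : ℝ)) * γ)
              < 2 * c / (Nat.gcd q r : ℝ) * ((r / Nat.gcd q r : ℕ) : ℝ)
                  / ((q / Nat.gcd q r : ℕ) : ℝ)
          then (Nat.gcd q r : ℝ) else 0) := by
  have hψr : 0 ≤ ψ r / r := div_nonneg (h0 r) (Nat.cast_nonneg r)
  have hzero : baWeight γ ψ 0 r = 0 := by
    unfold baWeight
    have : min (ψ 0 / ((0 : ℕ) : ℝ)) (ψ r / r) = 0 := by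
      rw [Nat.cast_zero, div_zero]
      exact min_eq_left hψr
    rw [this, mul_zero, ite_self]
  rw [Finset.range_eq_Ico, Finset.sum_eq_sum_Ico_succ_bot hr, hzero, zero_add, Finset.mul_sum]
  refine Finset.sum_le_sum (fun q hq => ?_)
  rw [Finset.mem_Ico] at hq
  have hq0 : 0 < q := by omega
  unfold baWeight
  by_cases hcond : nn ((((r / Nat.gcd q r : ℕ) : ℝ) - ((q / Nat.gcd q r : ℕ) : ℝ)) * γ)
      < ((r / Nat.gcd q r : ℕ) : ℝ) * ψ q + ((q / Nat.gcd q r : ℕ) : ℝ) * ψ r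
  · have hcond' := lt_of_lt_of_le hcond (ba_cond_imp c ψ hc hcq q r hq0 hq.2)
    rw [if_pos hcond, if_pos hcond', mul_comm (ψ r / r)]
    exact mul_le_mul_of_nonneg_left (min_le_right _ _) (Nat.cast_nonneg _)
  · rw [if_neg hcond]
    refine mul_nonneg hψr ?_
    split_ifs
    · exact Nat.cast_nonneg _
    · exact le_rfl

end Vale.Agent.H8
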