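import Mathlib
import Vale.Agent.H8.BA.Defs
import Vale.Agent.H8.BA.ABoundT

namespace Vale.Agent.H8

theorem prt_max_log (x a : ℝ) (hx : 1 ≤ x) (ha : 0 < a) :
    max 0 (Real.log (x / a)) ≤ Real.log x + max 0 (Real.log (1 / a)) := by
  have hx0 : 0 < x := lt_of_lt_of_le one_pos hx
  have h1 : Real.log (x / a) = Real.log x + Real.log (1 / a) := by
    rw [div_eq_mul_one_div, Real.log_mul hx0.ne' (one_div_pos.mpr ha).ne']
  have h2 : 0 ≤ Real.log x := Real.log_nonneg hx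
  rw [h1]
  apply max_le
  · have := le_max_left 0 (Real.log (1 / a))
    linarith
  · have := le_max_right 0 (Real.log (1 / a))
    linarith

theorem prt_real (c κ τ G D Dt L1 L2 lG lD m1 m2 N : ℝ) (hc : 0 < c) (hκ : 0 < κ) (hτ : 0 ≤ τ)
    (hG : 1 ≤ G) (hD : 1 ≤ D) (hDt : 1 ≤ Dt) (hL1 : 0 ≤ L1) (hL2 : 0 ≤ L2) (hlG : 0 ≤ lG)
    (hlD : 0 ≤ lD) (hm1 : m1 ≤ lG + L1) (hm2 : m2 ≤ (1 + τ) * lD + L2) (hm2n : 0 ≤ m2)
    (hN : N ≤ 2 * (2 * c / G) * D + (4 * (2 * c / G) * D) * (2 * m1)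
      + (3 * Dt / κ + 5) * (2 * m2)) :
    G * N ≤ (20 * c + 16 * c * L1) * (D * (1 + lG))
      + (6 / κ + 10) * (1 + τ + L2) * (G * Dt * (1 + lD)) := by
  have hG0 : 0 < G := lt_of_lt_of_le one_pos hG
  have hD0 : 0 < D := lt_of_lt_of_le one_pos hD
  have hDt0 : 0 < Dt := lt_of_lt_of_le one_pos hDt
  have e1 : G * (2 * (2 * c / G) * D + (4 * (2 * c / G) * D) * (2 * m1)
      + (3 * Dt / κ + 5) * (2 * m2))
      = 4 * c * D + 16 * c * D * m1 + G * (3 * Dt / κ + 5) * (2 * m2) := by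
    field_simp
    ring
  have h0 : G * N ≤ 4 * c * D + 16 * c * D * m1 + G * (3 * Dt / κ + 5) * (2 * m2) := by
    rw [← e1]
    exact mul_le_mul_of_nonneg_left hN hG0.le
  have b1 : 16 * c * D * m1 ≤ 16 * c * D * (lG + L1) :=
    mul_le_mul_of_nonneg_left hm1 (by positivity)
  have e2 : G * ((6 / κ + 10) * Dt) * m2 - G * (3 * Dt / κ + 5) * (2 * m2)
      = 10 * G * m2 * (Dt - 1) := by
    field_simp
    ring
  have p0 : 0 ≤ 10 * G * m2 * (Dt - 1) :=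
    mul_nonneg (mul_nonneg (by positivity) hm2n) (by linarith)
  have b2 : G * (3 * Dt / κ + 5) * (2 * m2) ≤ G * ((6 / κ + 10) * Dt) * m2 := by linarith
  have b3 : G * ((6 / κ + 10) * Dt) * m2 ≤ G * ((6 / κ + 10) * Dt) * ((1 + τ) * lD + L2) :=
    mul_le_mul_of_nonneg_left hm2 (by positivity)
  have p1 : 0 ≤ 16 * c * D + 4 * c * D * lG + 16 * c * L1 * D * lG := by positivity
  have p2 : 0 ≤ (6 / κ + 10) * (G * Dt) * ((1 + τ) + L2 * lD) := by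
    have hτ1 : 0 ≤ (1 + τ) + L2 * lD := by positivity
    exact mul_nonneg (by positivity) hτ1
  have id1 : (20 * c + 16 * c * L1) * (D * (1 + lG))
      + (6 / κ + 10) * (1 + τ + L2) * (G * Dt * (1 + lD))
      = (4 * c * D + 16 * c * D * (lG + L1) + G * ((6 / κ + 10) * Dt) * ((1 + τ) * lD + L2))
        + ((16 * c * D + 4 * c * D * lG + 16 * c * L1 * D * lG)
          + (6 / κ + 10) * (G * Dt) * ((1 + τ) + L2 * lD)) := by
    ring
  rw [id1]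
  linarith

theorem prt_fibre (γ κ τ c : ℝ) (hκ : 0 < κ) (hτ : 0 ≤ τ) (hc : 0 < c)
    (hγ : ∀ k : ℕ, 0 < k → κ ≤ (k : ℝ) ^ (1 + τ) * nn ((k : ℝ) * γ)) (r : ℕ) (hr : 0 < r)
    (g : ℕ) (hg : g ∈ r.divisors) :
    ∑ q ∈ (Finset.Ico 1 r).filter (fun q => Nat.gcd q r = g),
        (if nn ((((r / Nat.gcd q r : ℕ) : ℝ) - ((q / Nat.gcd q r : ℕ) : ℝ)) * γ)
              < 2 * c / (Nat.gcd q r : ℝ) * ((r / Nat.gcd q r : ℕ) : ℝ)
                  / ((q / Nat.gcd q r : ℕ) : ℝ)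
          then (Nat.gcd q r : ℝ) else 0)
      ≤ (20 * c + 16 * c * max 0 (Real.log (1 / (2 * c))))
            * (((r / g : ℕ) : ℝ) * (1 + Real.log (g : ℝ)))
        + (6 / κ + 10) * (1 + τ + max 0 (Real.log (1 / κ)))
            * ((g : ℝ) * ((r / g : ℕ) : ℝ) ^ τ * (1 + Real.log ((r / g : ℕ) : ℝ))) := by
  classical
  have hgr : g ∣ r := (Nat.mem_divisors.mp hg).1
  have hgpos : 0 < g := Nat.pos_of_mem_divisors hg
  have hdpos : 0 < r / g := Nat.div_pos (Nat.le_of_dvd hr hgr) hgpos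
  have hG : (1 : ℝ) ≤ (g : ℝ) := by exact_mod_cast hgpos
  have hD : (1 : ℝ) ≤ ((r / g : ℕ) : ℝ) := by exact_mod_cast hdpos
  have hG0 : (0 : ℝ) < (g : ℝ) := lt_of_lt_of_le one_pos hG
  have hD0 : (0 : ℝ) < ((r / g : ℕ) : ℝ) := lt_of_lt_of_le one_pos hD
  have hA : ∑ q ∈ (Finset.Ico 1 r).filter (fun q => Nat.gcd q r = g),
        (if nn ((((r / Nat.gcd q r : ℕ) : ℝ) - ((q / Nat.gcd q r : ℕ) : ℝ)) * γ)
              < 2 * c / (Nat.gcd q r : ℝ) * ((r / Nat.gcd q r : ℕ) : ℝ)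
                  / ((q / Nat.gcd q r : ℕ) : ℝ)
          then (Nat.gcd q r : ℝ) else 0)
      = ∑ q ∈ (Finset.Ico 1 r).filter (fun q => Nat.gcd q r = g),
        (if nn ((((r / g : ℕ) : ℝ) - ((q / g : ℕ) : ℝ)) * γ)
              < 2 * c / (g : ℝ) * ((r / g : ℕ) : ℝ) / ((q / g : ℕ) : ℝ)
          then (g : ℝ) else 0) := by
    apply Finset.sum_congr rfl
    intro q hq
    rw [(Finset.mem_filter.mp hq).2]
  rw [hA, ← Finset.sum_filter, Finset.sum_const, nsmul_eq_mul]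
  have hcard : (((Finset.Ico 1 r).filter (fun q => Nat.gcd q r = g)).filter
        (fun q => nn ((((r / g : ℕ) : ℝ) - ((q / g : ℕ) : ℝ)) * γ)
              < 2 * c / (g : ℝ) * ((r / g : ℕ) : ℝ) / ((q / g : ℕ) : ℝ))).card
      ≤ ((Finset.Ico 1 (r / g)).filter
        (fun q' : ℕ => nn ((((r / g : ℕ) : ℝ) - (q' : ℝ)) * γ)
              < 2 * c / (g : ℝ) * ((r / g : ℕ) : ℝ) / (q' : ℝ))).card := by
    apply Finset.card_le_card_of_injOn (fun q => q / g)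
    · intro q hq
      rw [Finset.mem_coe, Finset.mem_filter, Finset.mem_filter, Finset.mem_Ico] at hq
      rw [Finset.mem_coe, Finset.mem_filter, Finset.mem_Ico]
      have hdq : g ∣ q := hq.1.2 ▸ Nat.gcd_dvd_left q r
      refine ⟨⟨Nat.div_pos (Nat.le_of_dvd hq.1.1.1 hdq) hgpos,
        Nat.div_lt_div_of_lt_of_dvd hgr hq.1.1.2⟩, hq.2⟩
    · intro q hq q' hq' hqq'
      rw [Finset.mem_coe, Finset.mem_filter, Finset.mem_filter] at hq hq'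
      have hdq : g ∣ q := hq.1.2 ▸ Nat.gcd_dvd_left q r
      have hdq' : g ∣ q' := hq'.1.2 ▸ Nat.gcd_dvd_left q' r
      simp only at hqq'
      calc q = q / g * g := (Nat.div_mul_cancel hdq).symm
        _ = q' / g * g := by rw [hqq']
        _ = q' := Nat.div_mul_cancel hdq'
  have hAb := A_bound_t γ κ τ hκ hτ hγ (r / g) (2 * c / (g : ℝ)) (by positivity)
  have hN : ((((Finset.Ico 1 r).filter (fun q => Nat.gcd q r = g)).filter
        (fun q => nn ((((r / g : ℕ) : ℝ) - ((q / g : ℕ) : ℝ)) * γ)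
              < 2 * c / (g : ℝ) * ((r / g : ℕ) : ℝ) / ((q / g : ℕ) : ℝ))).card : ℝ)
      ≤ 2 * (2 * c / (g : ℝ)) * ((r / g : ℕ) : ℝ)
        + (4 * (2 * c / (g : ℝ)) * ((r / g : ℕ) : ℝ))
            * (2 * max 0 (Real.log (1 / (2 * c / (g : ℝ)))))
        + (3 * ((r / g : ℕ) : ℝ) ^ τ / κ + 5)
            * (2 * max 0 (Real.log (((r / g : ℕ) : ℝ) ^ (1 + τ) / κ))) :=
    le_trans (by exact_mod_cast hcard) hAb
  have hm1 : max 0 (Real.log (1 / (2 * c / (g : ℝ))))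
      ≤ Real.log (g : ℝ) + max 0 (Real.log (1 / (2 * c))) := by
    rw [one_div_div]
    exact prt_max_log (g : ℝ) (2 * c) hG (by positivity)
  have hpow1 : (1 : ℝ) ≤ ((r / g : ℕ) : ℝ) ^ (1 + τ) := Real.one_le_rpow hD (by linarith)
  have hm2 : max 0 (Real.log (((r / g : ℕ) : ℝ) ^ (1 + τ) / κ))
      ≤ (1 + τ) * Real.log ((r / g : ℕ) : ℝ) + max 0 (Real.log (1 / κ)) := by
    have h := prt_max_log (((r / g : ℕ) : ℝ) ^ (1 + τ)) κ hpow1 hκ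
    rw [Real.log_rpow hD0] at h
    exact h
  have hDt : (1 : ℝ) ≤ ((r / g : ℕ) : ℝ) ^ τ := Real.one_le_rpow hD hτ
  have hfin := prt_real c κ τ (g : ℝ) ((r / g : ℕ) : ℝ) (((r / g : ℕ) : ℝ) ^ τ)
    (max 0 (Real.log (1 / (2 * c)))) (max 0 (Real.log (1 / κ))) (Real.log (g : ℝ))
    (Real.log ((r / g : ℕ) : ℝ)) _ _ _ hc hκ hτ hG hD hDt
    (le_max_left _ _) (le_max_left _ _) (Real.log_nonneg hG) (Real.log_nonneg hD) hm1 hm2
    (le_max_left _ _) hN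
  rw [mul_comm]
  exact hfin

theorem prt_sum1 (τ : ℝ) (hτ : 0 ≤ τ) (r : ℕ) :
    ∑ g ∈ r.divisors, ((r / g : ℕ) : ℝ) * (1 + Real.log (g : ℝ))
      ≤ (r : ℝ) * ∑ d ∈ r.divisors, (1 + Real.log (d : ℝ)) / (d : ℝ) ^ (1 - τ) := by
  rw [Finset.mul_sum]
  apply Finset.sum_le_sum
  intro g hg
  have hgr : g ∣ r := (Nat.mem_divisors.mp hg).1
  have hgpos : 0 < g := Nat.pos_of_mem_divisors hg
  have hG : (1 : ℝ) ≤ (g : ℝ) := by exact_mod_cast hgpos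
  have hG0 : (0 : ℝ) < (g : ℝ) := lt_of_lt_of_le one_pos hG
  have hg0 : (g : ℝ) ≠ 0 := hG0.ne'
  have hpow : (g : ℝ) ^ (1 - τ) ≤ (g : ℝ) := by
    calc (g : ℝ) ^ (1 - τ) ≤ (g : ℝ) ^ (1 : ℝ) :=
          Real.rpow_le_rpow_of_exponent_le hG (by linarith)
      _ = (g : ℝ) := Real.rpow_one _
  have hpos : (0 : ℝ) < (g : ℝ) ^ (1 - τ) := Real.rpow_pos_of_pos hG0 _
  have h1 : (0 : ℝ) ≤ 1 + Real.log (g : ℝ) := by
    have := Real.log_nonneg hG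
    linarith
  rw [Nat.cast_div hgr hg0]
  calc (r : ℝ) / (g : ℝ) * (1 + Real.log (g : ℝ))
      = (r : ℝ) * ((1 + Real.log (g : ℝ)) / (g : ℝ)) := by ring
    _ ≤ (r : ℝ) * ((1 + Real.log (g : ℝ)) / (g : ℝ) ^ (1 - τ)) :=
        mul_le_mul_of_nonneg_left (div_le_div_of_nonneg_left h1 hpos hpow) (Nat.cast_nonneg r)

theorem prt_sum2 (τ : ℝ) (r : ℕ) (hr : 0 < r) :
    ∑ g ∈ r.divisors, (g : ℝ) * ((r / g : ℕ) : ℝ) ^ τ * (1 + Real.log ((r / g : ℕ) : ℝ))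
      = (r : ℝ) * ∑ d ∈ r.divisors, (1 + Real.log (d : ℝ)) / (d : ℝ) ^ (1 - τ) := by
  have h := Nat.sum_div_divisors r
    (fun x => ((r / x : ℕ) : ℝ) * (x : ℝ) ^ τ * (1 + Real.log (x : ℝ)))
  have h2 : ∑ g ∈ r.divisors, (g : ℝ) * ((r / g : ℕ) : ℝ) ^ τ * (1 + Real.log ((r / g : ℕ) : ℝ))
      = ∑ g ∈ r.divisors, ((r / (r / g) : ℕ) : ℝ) * ((r / g : ℕ) : ℝ) ^ τ
          * (1 + Real.log ((r / g : ℕ) : ℝ)) := by
    apply Finset.sum_congr rfl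
    intro g hg
    have hgr : g ∣ r := (Nat.mem_divisors.mp hg).1
    rw [Nat.div_div_self hgr hr.ne']
  rw [h2, h, Finset.mul_sum]
  apply Finset.sum_congr rfl
  intro d hd
  have hdr : d ∣ r := (Nat.mem_divisors.mp hd).1
  have hdpos : 0 < d := Nat.pos_of_mem_divisors hd
  have hD0 : (0 : ℝ) < (d : ℝ) := by exact_mod_cast hdpos
  have hd0 : (d : ℝ) ≠ 0 := hD0.ne'
  have hpt : (0 : ℝ) < (d : ℝ) ^ τ := Real.rpow_pos_of_pos hD0 _
  rw [Nat.cast_div hdr hd0, Real.rpow_sub hD0, Real.rpow_one]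
  field_simp

/-- For fixed `r`, the gcd-weighted number of `q < r` satisfying the Diophantine overlap
condition is `≤ C · r · ∑_{d ∣ r} (1 + log d) / d^(1-τ)`. -/
theorem per_r_t (γ κ τ c : ℝ) (hκ : 0 < κ) (hτ : 0 ≤ τ) (hc : 0 < c)
    (hγ : ∀ k : ℕ, 0 < k → κ ≤ (k : ℝ) ^ (1 + τ) * nn ((k : ℝ) * γ)) :
    ∃ C : ℝ, 0 ≤ C ∧ ∀ r : ℕ, 0 < r →
      ∑ q ∈ Finset.Ico 1 r,
        (if nn ((((r / Nat.gcd q r : ℕ) : ℝ) - ((q / Nat.gcd q r : ℕ) : ℝ)) * γ)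
              < 2 * c / (Nat.gcd q r : ℝ) * ((r / Nat.gcd q r : ℕ) : ℝ)
                  / ((q / Nat.gcd q r : ℕ) : ℝ)
          then (Nat.gcd q r : ℝ) else 0)
        ≤ C * (r : ℝ) * ∑ d ∈ r.divisors, (1 + Real.log (d : ℝ)) / (d : ℝ) ^ (1 - τ) := by
  classical
  have hL1 : (0 : ℝ) ≤ max 0 (Real.log (1 / (2 * c))) := le_max_left _ _
  have hL2 : (0 : ℝ) ≤ max 0 (Real.log (1 / κ)) := le_max_left _ _
  have hC1 : (0 : ℝ) ≤ 20 * c + 16 * c * max 0 (Real.log (1 / (2 * c))) := by positivity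
  have hC2 : (0 : ℝ) ≤ (6 / κ + 10) * (1 + τ + max 0 (Real.log (1 / κ))) :=
    mul_nonneg (by positivity) (by linarith)
  refine ⟨(20 * c + 16 * c * max 0 (Real.log (1 / (2 * c))))
      + (6 / κ + 10) * (1 + τ + max 0 (Real.log (1 / κ))), add_nonneg hC1 hC2, ?_⟩
  intro r hr
  have hmaps : ∀ q ∈ Finset.Ico 1 r, Nat.gcd q r ∈ r.divisors := by
    intro q _
    rw [Nat.mem_divisors]
    exact ⟨Nat.gcd_dvd_right q r, hr.ne'⟩
  rw [← Finset.sum_fiberwise_of_maps_to hmaps]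
  calc ∑ g ∈ r.divisors, ∑ q ∈ (Finset.Ico 1 r).filter (fun q => Nat.gcd q r = g),
        (if nn ((((r / Nat.gcd q r : ℕ) : ℝ) - ((q / Nat.gcd q r : ℕ) : ℝ)) * γ)
              < 2 * c / (Nat.gcd q r : ℝ) * ((r / Nat.gcd q r : ℕ) : ℝ)
                  / ((q / Nat.gcd q r : ℕ) : ℝ)
          then (Nat.gcd q r : ℝ) else 0)
      ≤ ∑ g ∈ r.divisors, ((20 * c + 16 * c * max 0 (Real.log (1 / (2 * c))))
            * (((r / g : ℕ) : ℝ) * (1 + Real.log (g : ℝ)))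
        + (6 / κ + 10) * (1 + τ + max 0 (Real.log (1 / κ)))
            * ((g : ℝ) * ((r / g : ℕ) : ℝ) ^ τ * (1 + Real.log ((r / g : ℕ) : ℝ)))) :=
        Finset.sum_le_sum (fun g hg => prt_fibre γ κ τ c hκ hτ hc hγ r hr g hg)
    _ = (20 * c + 16 * c * max 0 (Real.log (1 / (2 * c))))
            * ∑ g ∈ r.divisors, ((r / g : ℕ) : ℝ) * (1 + Real.log (g : ℝ))
        + (6 / κ + 10) * (1 + τ + max 0 (Real.log (1 / κ)))
            * ∑ g ∈ r.divisors, (g : ℝ) * ((r / g : ℕ) : ℝ) ^ τ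
                * (1 + Real.log ((r / g : ℕ) : ℝ)) := by
        rw [Finset.sum_add_distrib, ← Finset.mul_sum, ← Finset.mul_sum]
    _ ≤ (20 * c + 16 * c * max 0 (Real.log (1 / (2 * c))))
            * ((r : ℝ) * ∑ d ∈ r.divisors, (1 + Real.log (d : ℝ)) / (d : ℝ) ^ (1 - τ))
        + (6 / κ + 10) * (1 + τ + max 0 (Real.log (1 / κ)))
            * ((r : ℝ) * ∑ d ∈ r.divisors, (1 + Real.log (d : ℝ)) / (d : ℝ) ^ (1 - τ)) := by
        rw [prt_sum2 τ r hr]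
        have h1 := mul_le_mul_of_nonneg_left (prt_sum1 τ hτ r) hC1
        linarith
    _ = ((20 * c + 16 * c * max 0 (Real.log (1 / (2 * c))))
      + (6 / κ + 10) * (1 + τ + max 0 (Real.log (1 / κ)))) * (r : ℝ)
        * ∑ d ∈ r.divisors, (1 + Real.log (d : ℝ)) / (d : ℝ) ^ (1 - τ) := by
        ring

end Vale.Agent.H8
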