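import Mathlib
import Vale.Agent.H8.BA.Pairs
import Vale.Agent.H8.BA.PerRT

namespace Vale.Agent.H8

open MeasureTheory Set Filter

/-- Normalised main theorem with an abstract arithmetic weight `Gw`: `ψ 0 = 0`, `ψ q ≤ c / q`
with `c ≤ 1/2`. -/
theorem ba_gen_aux (γ c : ℝ) (Gw : ℕ → ℝ)
    (hper : ∃ C : ℝ, 0 ≤ C ∧ ∀ r : ℕ, 0 < r →
      ∑ q ∈ Finset.Ico 1 r,
        (if nn ((((r / Nat.gcd q r : ℕ) : ℝ) - ((q / Nat.gcd q r : ℕ) : ℝ)) * γ)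
              < 2 * c / (Nat.gcd q r : ℝ) * ((r / Nat.gcd q r : ℕ) : ℝ)
                  / ((q / Nat.gcd q r : ℕ) : ℝ)
          then (Nat.gcd q r : ℝ) else 0)
        ≤ C * (r : ℝ) * Gw r)
    (ψ : ℕ → ℝ) (h0 : ∀ q, 0 ≤ ψ q) (hc0 : 0 < c) (hc2 : c ≤ 1 / 2) (hψ0 : ψ 0 = 0)
    (hcq : ∀ q : ℕ, 0 < q → ψ q ≤ c / q)
    (hdiv : Tendsto (fun N => ∑ q ∈ Finset.range N, ψ q) atTop atTop)
    (hG : ∀ ε : ℝ, 0 < ε → ∃ᶠ N : ℕ in atTop,
      ∑ q ∈ Finset.range N, ψ q * Gw q ≤ ε * (∑ q ∈ Finset.range N, ψ q) ^ 2) :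
    ∀ᵐ x : ℝ, ∃ᶠ q : ℕ in atTop, |(q : ℝ) * x - γ - round ((q : ℝ) * x - γ)| < ψ q := by
  have h2 : ∀ q, ψ q ≤ 1 / 2 := by
    intro q
    rcases Nat.eq_zero_or_pos q with hq | hq
    · rw [hq, hψ0]; norm_num
    · have h1 := hcq q hq
      have hq1 : (1 : ℝ) ≤ q := by exact_mod_cast hq
      have h3 : c / q ≤ c := div_le_self hc0.le hq1
      linarith
  obtain ⟨C, hC0, hC⟩ := hper
  have hinner : ∀ r : ℕ, ∑ q ∈ Finset.range r, baWeight γ ψ q r ≤ C * (ψ r * Gw r) := by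
    intro r
    rcases Nat.eq_zero_or_pos r with hr | hr
    · subst hr
      simp [hψ0]
    · have h1 := sum_baWeight_le γ c ψ h0 hc0 hcq r hr
      have h3 := hC r hr
      have hψr : 0 ≤ ψ r / r := div_nonneg (h0 r) (Nat.cast_nonneg r)
      have hr' : (0 : ℝ) < r := by exact_mod_cast hr
      calc ∑ q ∈ Finset.range r, baWeight γ ψ q r
          ≤ (ψ r / r) * (C * (r : ℝ) * Gw r) :=
            h1.trans (mul_le_mul_of_nonneg_left h3 hψr)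
        _ = C * (ψ r * Gw r) := by
            field_simp
  refine real_main_w (fun _ => γ) ψ (baWeight γ ψ) h0 h2 (baWeight_nonneg γ ψ h0)
    (fun q r hq hqr => overlap_ba γ ψ h0 h2 q r hq hqr) hdiv ?_
  intro ε hε
  have hε' : 0 < ε / (C + 1) := by positivity
  refine (hG (ε / (C + 1)) hε').mono (fun N hN => ?_)
  set P := ∑ q ∈ Finset.range N, ψ q with hP
  calc ∑ r ∈ Finset.range N, ∑ q ∈ Finset.range r, baWeight γ ψ q r
      ≤ ∑ r ∈ Finset.range N, C * (ψ r * Gw r) :=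
        Finset.sum_le_sum (fun r _ => hinner r)
    _ = C * ∑ r ∈ Finset.range N, ψ r * Gw r := by
        rw [Finset.mul_sum]
    _ ≤ C * (ε / (C + 1) * P ^ 2) := mul_le_mul_of_nonneg_left hN hC0
    _ ≤ ε * P ^ 2 := by
        have h1 : C * (ε / (C + 1)) ≤ ε := by
          rw [mul_div_assoc', div_le_iff₀ (by linarith)]
          nlinarith
        have h2 : 0 ≤ P ^ 2 := sq_nonneg P
        calc C * (ε / (C + 1) * P ^ 2) = (C * (ε / (C + 1))) * P ^ 2 := by ring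
          _ ≤ ε * P ^ 2 := mul_le_mul_of_nonneg_right h1 h2

/-- Main theorem with an abstract arithmetic weight `Gw ≥ 0`: `q ψ(q) ≤ c`, divergence, and the
criterion `∑ ψ Gw = o((∑ ψ)^2)` along a subsequence. -/
theorem ba_gen (γ c : ℝ) (Gw : ℕ → ℝ) (hGw : ∀ q, 0 ≤ Gw q)
    (hper : ∃ C : ℝ, 0 ≤ C ∧ ∀ r : ℕ, 0 < r →
      ∑ q ∈ Finset.Ico 1 r,
        (if nn ((((r / Nat.gcd q r : ℕ) : ℝ) - ((q / Nat.gcd q r : ℕ) : ℝ)) * γ)
              < 2 * (1 / 2 : ℝ) / (Nat.gcd q r : ℝ) * ((r / Nat.gcd q r : ℕ) : ℝ)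
                  / ((q / Nat.gcd q r : ℕ) : ℝ)
          then (Nat.gcd q r : ℝ) else 0)
        ≤ C * (r : ℝ) * Gw r)
    (ψ : ℕ → ℝ) (h0 : ∀ q, 0 ≤ ψ q) (hc : ∀ q : ℕ, (q : ℝ) * ψ q ≤ c)
    (hdiv : ¬ Summable ψ)
    (hG : ∀ ε : ℝ, 0 < ε → ∃ᶠ N : ℕ in atTop,
      ∑ q ∈ Finset.range N, ψ q * Gw q ≤ ε * (∑ q ∈ Finset.range N, ψ q) ^ 2) :
    ∀ᵐ x : ℝ, ∃ᶠ q : ℕ in atTop, |(q : ℝ) * x - γ - round ((q : ℝ) * x - γ)| < ψ q := by
  classical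
  set c' : ℝ := max c 1 with hc'
  have hc'1 : 1 ≤ c' := le_max_right _ _
  have hcc' : c ≤ c' := le_max_left _ _
  have hc'0 : 0 < c' := by linarith
  set η : ℝ := 1 / (2 * c') with hη
  have hη0 : 0 < η := by positivity
  have hη1 : η ≤ 1 := by
    rw [hη, div_le_one (by positivity)]
    linarith
  set ψ₁ : ℕ → ℝ := fun q => if q = 0 then 0 else η * ψ q with hψ₁
  have h0₁ : ∀ q, 0 ≤ ψ₁ q := by
    intro q
    simp only [hψ₁]
    split_ifs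
    · exact le_rfl
    · exact mul_nonneg hη0.le (h0 q)
  have hle : ∀ q, ψ₁ q ≤ ψ q := by
    intro q
    simp only [hψ₁]
    split_ifs
    · exact h0 q
    · have := h0 q
      nlinarith
  have hψ₁0 : ψ₁ 0 = 0 := by simp [hψ₁]
  have hcq : ∀ q : ℕ, 0 < q → ψ₁ q ≤ (1 / 2) / q := by
    intro q hq
    have hq' : (0 : ℝ) < q := by exact_mod_cast hq
    simp only [hψ₁]
    rw [if_neg hq.ne', le_div_iff₀ hq']
    have h1 := hc q
    have h2 : η * c' = 1 / 2 := by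
      rw [hη]; field_simp
    calc η * ψ q * q = η * ((q : ℝ) * ψ q) := by ring
      _ ≤ η * c' := mul_le_mul_of_nonneg_left (h1.trans hcc') hη0.le
      _ = 1 / 2 := h2
  set P : ℕ → ℝ := fun N => ∑ q ∈ Finset.range N, ψ q with hP
  set P₁ : ℕ → ℝ := fun N => ∑ q ∈ Finset.range N, ψ₁ q with hP₁
  have hPtend : Tendsto P atTop atTop :=
    (not_summable_iff_tendsto_nat_atTop_of_nonneg h0).mp hdiv
  have hrel : ∀ N, η * P N ≤ P₁ N + η * ψ 0 := by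
    intro N
    have h1 : ∀ q ∈ Finset.range N, η * ψ q ≤ ψ₁ q + (if q = 0 then η * ψ 0 else 0) := by
      intro q _
      simp only [hψ₁]
      by_cases hq : q = 0
      · subst hq
        simp
      · rw [if_neg hq, if_neg hq, add_zero]
    have h2 : ∑ q ∈ Finset.range N, η * ψ q
        ≤ ∑ q ∈ Finset.range N, (ψ₁ q + (if q = 0 then η * ψ 0 else 0)) :=
      Finset.sum_le_sum h1
    rw [← Finset.mul_sum, Finset.sum_add_distrib] at h2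
    have h3 : ∑ q ∈ Finset.range N, (if q = 0 then η * ψ 0 else 0) ≤ η * ψ 0 := by
      rw [Finset.sum_ite_eq' (Finset.range N) 0 (fun _ => η * ψ 0)]
      split_ifs
      · exact le_rfl
      · exact mul_nonneg hη0.le (h0 0)
    linarith
  have hP₁tend : Tendsto P₁ atTop atTop := by
    have h1 : Tendsto (fun N => η * P N + (-(η * ψ 0))) atTop atTop :=
      tendsto_atTop_add_const_right _ _ (Tendsto.const_mul_atTop hη0 hPtend)
    refine tendsto_atTop_mono (fun N => ?_) h1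
    have := hrel N
    linarith
  have hG₁ : ∀ ε : ℝ, 0 < ε → ∃ᶠ N : ℕ in atTop,
      ∑ q ∈ Finset.range N, ψ₁ q * Gw q ≤ ε * (∑ q ∈ Finset.range N, ψ₁ q) ^ 2 := by
    intro ε hε
    have hε' : 0 < ε * η / 4 := by positivity
    have hfr := (hG (ε * η / 4) hε').and_eventually (hP₁tend.eventually_ge_atTop (η * ψ 0))
    refine hfr.mono (fun N hN => ?_)
    obtain ⟨hGN, hbig⟩ := hN
    have hterm : ∑ q ∈ Finset.range N, ψ₁ q * Gw q
        ≤ η * ∑ q ∈ Finset.range N, ψ q * Gw q := by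
      rw [Finset.mul_sum]
      refine Finset.sum_le_sum (fun q _ => ?_)
      have hGq := hGw q
      have hψq := h0 q
      simp only [hψ₁]
      split_ifs
      · rw [zero_mul]
        exact mul_nonneg hη0.le (mul_nonneg hψq hGq)
      · rw [mul_assoc]
    have h1 : η * P N ≤ 2 * P₁ N := by
      have := hrel N
      linarith
    have hP0 : 0 ≤ P N := Finset.sum_nonneg (fun q _ => h0 q)
    have h2 : (η * P N) ^ 2 ≤ (2 * P₁ N) ^ 2 :=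
      pow_le_pow_left₀ (mul_nonneg hη0.le hP0) h1 2
    have h3 : η * (ε * η / 4 * P N ^ 2) ≤ ε * P₁ N ^ 2 := by
      have : η * (ε * η / 4 * P N ^ 2) = ε / 4 * (η * P N) ^ 2 := by ring
      rw [this]
      have h4 : ε / 4 * (η * P N) ^ 2 ≤ ε / 4 * (2 * P₁ N) ^ 2 :=
        mul_le_mul_of_nonneg_left h2 (by positivity)
      linarith
    calc ∑ q ∈ Finset.range N, ψ₁ q * Gw q
        ≤ η * ∑ q ∈ Finset.range N, ψ q * Gw q := hterm
      _ ≤ η * (ε * η / 4 * P N ^ 2) := mul_le_mul_of_nonneg_left hGN hη0.le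
      _ ≤ ε * P₁ N ^ 2 := h3
  have hmain := ba_gen_aux γ (1 / 2) Gw hper ψ₁ h0₁ (by norm_num) le_rfl hψ₁0 hcq hP₁tend hG₁
  filter_upwards [hmain] with x hx
  exact hx.mono (fun q hq => lt_of_lt_of_le hq (hle q))

theorem divLogT_sum_nonneg (τ : ℝ) (q : ℕ) :
    0 ≤ ∑ d ∈ q.divisors, (1 + Real.log (d : ℝ)) / (d : ℝ) ^ (1 - τ) := by
  refine Finset.sum_nonneg (fun d hd => ?_)
  have hd1 : 1 ≤ d := Nat.pos_of_mem_divisors hd
  have h1 : (1 : ℝ) ≤ d := by exact_mod_cast hd1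
  have h2 := Real.log_nonneg h1
  have h3 : 0 < (d : ℝ) ^ (1 - τ) := Real.rpow_pos_of_pos (by linarith) _
  positivity

/-- Main theorem for a shift of Diophantine type `τ`. -/
theorem ba_main_t (γ κ τ c : ℝ) (hκ : 0 < κ) (hτ : 0 ≤ τ)
    (hγ : ∀ k : ℕ, 0 < k →
      κ ≤ (k : ℝ) ^ (1 + τ) * |(k : ℝ) * γ - round ((k : ℝ) * γ)|)
    (ψ : ℕ → ℝ) (h0 : ∀ q, 0 ≤ ψ q) (hc : ∀ q : ℕ, (q : ℝ) * ψ q ≤ c)
    (hdiv : ¬ Summable ψ)
    (hG : ∀ ε : ℝ, 0 < ε → ∃ᶠ N : ℕ in atTop,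
      ∑ q ∈ Finset.range N,
          ψ q * ∑ d ∈ q.divisors, (1 + Real.log (d : ℝ)) / (d : ℝ) ^ (1 - τ)
        ≤ ε * (∑ q ∈ Finset.range N, ψ q) ^ 2) :
    ∀ᵐ x : ℝ, ∃ᶠ q : ℕ in atTop, |(q : ℝ) * x - γ - round ((q : ℝ) * x - γ)| < ψ q := by
  have hγ' : ∀ k : ℕ, 0 < k → κ ≤ (k : ℝ) ^ (1 + τ) * nn ((k : ℝ) * γ) := hγ
  exact ba_gen γ c (fun q => ∑ d ∈ q.divisors, (1 + Real.log (d : ℝ)) / (d : ℝ) ^ (1 - τ))
    (divLogT_sum_nonneg τ) (per_r_t γ κ τ (1 / 2) hκ hτ (by norm_num) hγ') ψ h0 hc hdiv hG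

/-- Corollary: support on integers `q` with `∑_{d ∣ q} (1 + log d) / d^(1-τ) ≤ K`. -/
theorem ba_bounded_t (γ κ τ c K : ℝ) (hκ : 0 < κ) (hτ : 0 ≤ τ)
    (hγ : ∀ k : ℕ, 0 < k →
      κ ≤ (k : ℝ) ^ (1 + τ) * |(k : ℝ) * γ - round ((k : ℝ) * γ)|)
    (ψ : ℕ → ℝ) (h0 : ∀ q, 0 ≤ ψ q) (hc : ∀ q : ℕ, (q : ℝ) * ψ q ≤ c)
    (hsupp : ∀ q : ℕ, ψ q ≠ 0 →
      ∑ d ∈ q.divisors, (1 + Real.log (d : ℝ)) / (d : ℝ) ^ (1 - τ) ≤ K)
    (hdiv : ¬ Summable ψ) :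
    ∀ᵐ x : ℝ, ∃ᶠ q : ℕ in atTop, |(q : ℝ) * x - γ - round ((q : ℝ) * x - γ)| < ψ q := by
  refine ba_main_t γ κ τ c hκ hτ hγ ψ h0 hc hdiv ?_
  intro ε hε
  set K' : ℝ := max K 0 with hK'
  have hK'0 : 0 ≤ K' := le_max_right _ _
  have hKK' : K ≤ K' := le_max_left _ _
  have hPtend : Tendsto (fun N => ∑ q ∈ Finset.range N, ψ q) atTop atTop :=
    (not_summable_iff_tendsto_nat_atTop_of_nonneg h0).mp hdiv
  have hev : ∀ᶠ N in atTop, K' / ε ≤ ∑ q ∈ Finset.range N, ψ q :=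
    hPtend.eventually_ge_atTop (K' / ε)
  refine hev.frequently.mono (fun N hN => ?_)
  set P := ∑ q ∈ Finset.range N, ψ q with hP
  have hP0 : 0 ≤ P := Finset.sum_nonneg (fun q _ => h0 q)
  have h5 : ∑ q ∈ Finset.range N,
        ψ q * ∑ d ∈ q.divisors, (1 + Real.log (d : ℝ)) / (d : ℝ) ^ (1 - τ)
      ≤ K' * P := by
    rw [hP, Finset.mul_sum]
    refine Finset.sum_le_sum (fun q _ => ?_)
    by_cases hq : ψ q = 0
    · rw [hq, zero_mul, mul_zero]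
    · rw [mul_comm K']
      exact mul_le_mul_of_nonneg_left ((hsupp q hq).trans hKK') (h0 q)
  refine h5.trans ?_
  rw [div_le_iff₀ hε] at hN
  nlinarith

end Vale.Agent.H8
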