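import Mathlib
import Vale.Agent.H8.BA.MainT
import Vale.Agent.H8.BA.BlockMean

namespace Vale.Agent.H8

open MeasureTheory Set Filter

/-- A sum over `range (2^n)` split into the term at `0` and the dyadic blocks. -/
theorem sum_range_two_pow (f : ℕ → ℝ) (n : ℕ) :
    ∑ q ∈ Finset.range (2 ^ n), f q
      = f 0 + ∑ k ∈ Finset.range n, ∑ q ∈ Finset.Ico ((2 : ℕ) ^ k) ((2 : ℕ) ^ (k + 1)), f q := by
  induction n with
  | zero => simp
  | succ n ih =>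
    rw [Finset.sum_range_succ, ← add_assoc, ← ih, Finset.range_eq_Ico, Finset.range_eq_Ico]
    have h1 : (2 : ℕ) ^ n ≤ 2 ^ (n + 1) := Nat.pow_le_pow_right (by norm_num) (Nat.le_succ n)
    exact (Finset.sum_Ico_consecutive f (Nat.zero_le _) h1).symm

/-- Corollary for a shift of Diophantine type `τ < 1`: `ψ = O(1/q)` such that every dyadic
block either carries mass at least `a` or has its support inside the integers `q` with
`∑_{d ∣ q} (1 + log d) / d^(1-τ) ≤ K`. -/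
theorem ba_blocks_t (γ κ τ c a K : ℝ) (hκ : 0 < κ) (hτ : 0 ≤ τ) (hτ1 : τ < 1)
    (hγ : ∀ k : ℕ, 0 < k →
      κ ≤ (k : ℝ) ^ (1 + τ) * |(k : ℝ) * γ - round ((k : ℝ) * γ)|)
    (ψ : ℕ → ℝ) (h0 : ∀ q, 0 ≤ ψ q) (hc : ∀ q : ℕ, (q : ℝ) * ψ q ≤ c) (ha : 0 < a)
    (hblock : ∀ k : ℕ,
      a ≤ ∑ q ∈ Finset.Ico ((2 : ℕ) ^ k) ((2 : ℕ) ^ (k + 1)), ψ q ∨
      ∀ q ∈ Finset.Ico ((2 : ℕ) ^ k) ((2 : ℕ) ^ (k + 1)), ψ q ≠ 0 →
        ∑ d ∈ q.divisors, (1 + Real.log (d : ℝ)) / (d : ℝ) ^ (1 - τ) ≤ K)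
    (hdiv : ¬ Summable ψ) :
    ∀ᵐ x : ℝ, ∃ᶠ q : ℕ in atTop, |(q : ℝ) * x - γ - round ((q : ℝ) * x - γ)| < ψ q := by
  classical
  obtain ⟨M, hM0, hM⟩ := divLogT_block_le τ hτ hτ1
  have hc0 : 0 ≤ c := by simpa using hc 0
  set G : ℕ → ℝ := fun q => ∑ d ∈ q.divisors, (1 + Real.log (d : ℝ)) / (d : ℝ) ^ (1 - τ) with hG
  have hG0 : ∀ q, 0 ≤ G q := divLogT_sum_nonneg τ
  have hGzero : G 0 = 0 := by simp [hG]
  set K₁ : ℝ := max (c * M / a) (max K 0) with hK₁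
  have hK₁a : c * M / a ≤ K₁ := le_max_left _ _
  have hK₁K : K ≤ K₁ := (le_max_left K 0).trans (le_max_right _ _)
  have hK0 : 0 ≤ K₁ := (le_max_right K 0).trans (le_max_right _ _)
  -- block bound
  have hblk : ∀ k : ℕ, ∑ q ∈ Finset.Ico ((2 : ℕ) ^ k) ((2 : ℕ) ^ (k + 1)), ψ q * G q
      ≤ K₁ * ∑ q ∈ Finset.Ico ((2 : ℕ) ^ k) ((2 : ℕ) ^ (k + 1)), ψ q := by
    intro k
    rcases hblock k with hmass | hsupp
    · have hpow : (0 : ℝ) < (2 : ℝ) ^ k := by positivity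
      have hterm : ∀ q ∈ Finset.Ico ((2 : ℕ) ^ k) ((2 : ℕ) ^ (k + 1)),
          ψ q * G q ≤ c / (2 : ℝ) ^ k * G q := by
        intro q hq
        rw [Finset.mem_Ico] at hq
        have hq1 : ((2 : ℕ) ^ k : ℕ) ≤ q := hq.1
        have hqr : (2 : ℝ) ^ k ≤ (q : ℝ) := by exact_mod_cast hq1
        have hq0 : (0 : ℝ) < q := lt_of_lt_of_le hpow hqr
        have h1 : ψ q ≤ c / q := by
          rw [le_div_iff₀ hq0]
          have := hc q
          linarith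
        have h2 : c / (q : ℝ) ≤ c / (2 : ℝ) ^ k := div_le_div_of_nonneg_left hc0 hpow hqr
        exact mul_le_mul_of_nonneg_right (h1.trans h2) (hG0 q)
      have hsum : ∑ q ∈ Finset.Ico ((2 : ℕ) ^ k) ((2 : ℕ) ^ (k + 1)), ψ q * G q ≤ c * M := by
        calc ∑ q ∈ Finset.Ico ((2 : ℕ) ^ k) ((2 : ℕ) ^ (k + 1)), ψ q * G q
            ≤ ∑ q ∈ Finset.Ico ((2 : ℕ) ^ k) ((2 : ℕ) ^ (k + 1)), c / (2 : ℝ) ^ k * G q :=
              Finset.sum_le_sum hterm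
          _ = c / (2 : ℝ) ^ k * ∑ q ∈ Finset.Ico ((2 : ℕ) ^ k) ((2 : ℕ) ^ (k + 1)), G q := by
              rw [Finset.mul_sum]
          _ ≤ c / (2 : ℝ) ^ k * (M * (2 : ℝ) ^ k) :=
              mul_le_mul_of_nonneg_left (hM k) (div_nonneg hc0 hpow.le)
          _ = c * M := by field_simp
      calc ∑ q ∈ Finset.Ico ((2 : ℕ) ^ k) ((2 : ℕ) ^ (k + 1)), ψ q * G q ≤ c * M := hsum
        _ = (c * M / a) * a := by field_simp
        _ ≤ K₁ * a := mul_le_mul_of_nonneg_right hK₁a ha.le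
        _ ≤ K₁ * ∑ q ∈ Finset.Ico ((2 : ℕ) ^ k) ((2 : ℕ) ^ (k + 1)), ψ q :=
            mul_le_mul_of_nonneg_left hmass hK0
    · rw [Finset.mul_sum]
      refine Finset.sum_le_sum (fun q hq => ?_)
      by_cases hq0 : ψ q = 0
      · rw [hq0, zero_mul, mul_zero]
      · rw [mul_comm K₁]
        exact mul_le_mul_of_nonneg_left ((hsupp q hq hq0).trans hK₁K) (h0 q)
  -- bound on the full sums up to `2^n`
  have hfull : ∀ n : ℕ, ∑ q ∈ Finset.range (2 ^ n), ψ q * G q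
      ≤ K₁ * ∑ q ∈ Finset.range (2 ^ n), ψ q := by
    intro n
    rw [sum_range_two_pow (fun q => ψ q * G q) n, sum_range_two_pow ψ n, hGzero, mul_zero,
      zero_add]
    have h1 : ∑ k ∈ Finset.range n,
        ∑ q ∈ Finset.Ico ((2 : ℕ) ^ k) ((2 : ℕ) ^ (k + 1)), ψ q * G q
        ≤ ∑ k ∈ Finset.range n,
          K₁ * ∑ q ∈ Finset.Ico ((2 : ℕ) ^ k) ((2 : ℕ) ^ (k + 1)), ψ q :=
      Finset.sum_le_sum (fun k _ => hblk k)
    rw [← Finset.mul_sum] at h1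
    have h2 : 0 ≤ K₁ * ψ 0 := mul_nonneg hK0 (h0 0)
    rw [mul_add]
    linarith
  refine ba_main_t γ κ τ c hκ hτ hγ ψ h0 hc hdiv ?_
  intro ε hε
  have hPtend : Tendsto (fun N => ∑ q ∈ Finset.range N, ψ q) atTop atTop :=
    (not_summable_iff_tendsto_nat_atTop_of_nonneg h0).mp hdiv
  obtain ⟨N₁, hN₁⟩ := eventually_atTop.mp (hPtend.eventually_ge_atTop (K₁ / ε))
  rw [frequently_atTop]
  intro N₀
  set n := max N₀ N₁ with hn
  have hpow : n < 2 ^ n := Nat.lt_two_pow_self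
  refine ⟨2 ^ n, by omega, ?_⟩
  have hP := hN₁ (2 ^ n) (by omega)
  set P := ∑ q ∈ Finset.range (2 ^ n), ψ q with hPdef
  have hP0 : 0 ≤ P := Finset.sum_nonneg (fun q _ => h0 q)
  refine (hfull n).trans ?_
  rw [div_le_iff₀ hε] at hP
  nlinarith

end Vale.Agent.H8
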