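import Mathlib

namespace Vale.Agent.H8

/-- The part of the divisor sum `∑_{d ∣ q} (1 + log d) / d^(1-τ)` that comes from the divisors
`d > Nat.log 2 q`. -/
noncomputable def xdTail (τ : ℝ) (q : ℕ) : ℝ :=
  ∑ d ∈ q.divisors.filter (fun d => Nat.log 2 q < d),
    (1 + Real.log (d : ℝ)) / (d : ℝ) ^ (1 - τ)

/-- Truncation of `ψ`: keep `ψ q` only when the large divisors of `q` carry weight at most `1`. -/
noncomputable def xdPsi (τ : ℝ) (ψ : ℕ → ℝ) (q : ℕ) : ℝ :=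
  if xdTail τ q ≤ 1 then ψ q else 0

theorem xdW_nonneg (τ : ℝ) (d : ℕ) (hd : 1 ≤ d) :
    0 ≤ (1 + Real.log (d : ℝ)) / (d : ℝ) ^ (1 - τ) := by
  have h1 : (1 : ℝ) ≤ d := by exact_mod_cast hd
  have h2 := Real.log_nonneg h1
  have h3 : 0 < (d : ℝ) ^ (1 - τ) := Real.rpow_pos_of_pos (by linarith) _
  positivity

theorem xdTail_nonneg (τ : ℝ) (q : ℕ) : 0 ≤ xdTail τ q := by
  unfold xdTail
  refine Finset.sum_nonneg (fun d hd => ?_)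
  rw [Finset.mem_filter] at hd
  exact xdW_nonneg τ d (Nat.pos_of_mem_divisors hd.1)

theorem xdPsi_nonneg (τ : ℝ) (ψ : ℕ → ℝ) (h0 : ∀ q, 0 ≤ ψ q) (q : ℕ) : 0 ≤ xdPsi τ ψ q := by
  unfold xdPsi
  split_ifs
  · exact h0 q
  · exact le_rfl

theorem xdPsi_le (τ : ℝ) (ψ : ℕ → ℝ) (h0 : ∀ q, 0 ≤ ψ q) (q : ℕ) : xdPsi τ ψ q ≤ ψ q := by
  unfold xdPsi
  split_ifs
  · exact le_rfl
  · exact h0 q

theorem xdPsi_zero (τ : ℝ) (ψ : ℕ → ℝ) : xdPsi τ ψ 0 = ψ 0 := by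
  unfold xdPsi xdTail
  simp

end Vale.Agent.H8
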