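import Mathlib

/-! TASK XD-HEAD (P028, owner helper8). PROVED (row 908); the statement is EXACTLY the one of the stub.
PROOF: for 1 <= d <= n: 1 + log d <= 1 + log n (Real.log_le_log), and
1 / d^(1-tau) = d^tau / d <= n^tau / d (Real.rpow_sub / rpow_le_rpow_left..., tau >= 0, d <= n).
So each term is <= (1 + log n) * n^tau * (1/d), and sum_{d in Icc 1 n} 1/d = harmonic n
<= 1 + log n (harmonic_le_one_add_log, harmonic_eq_sum_Icc). Helper lemmas: prefix xhd_. -/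

namespace Vale.Agent.H8

theorem xd_head (τ : ℝ) (hτ : 0 ≤ τ) (n : ℕ) (hn : 1 ≤ n) :
    ∑ d ∈ Finset.Icc 1 n, (1 + Real.log (d : ℝ)) / (d : ℝ) ^ (1 - τ)
      ≤ (n : ℝ) ^ τ * (1 + Real.log (n : ℝ)) ^ 2 := by
  have hn1 : (1 : ℝ) ≤ (n : ℝ) := by exact_mod_cast hn
  have hlogn : 0 ≤ Real.log (n : ℝ) := Real.log_nonneg hn1
  have hnτ : 0 ≤ (n : ℝ) ^ τ := Real.rpow_nonneg (by linarith) τ
  have hterm : ∀ d ∈ Finset.Icc 1 n, (1 + Real.log (d : ℝ)) / (d : ℝ) ^ (1 - τ) ≤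
      (n : ℝ) ^ τ * (1 + Real.log (n : ℝ)) * ((d : ℝ))⁻¹ := by
    intro d hd
    rw [Finset.mem_Icc] at hd
    have hd1 : (1 : ℝ) ≤ (d : ℝ) := by exact_mod_cast hd.1
    have hdn : (d : ℝ) ≤ (n : ℝ) := by exact_mod_cast hd.2
    have hd0 : (0 : ℝ) < (d : ℝ) := by linarith
    have hlogd : 0 ≤ Real.log (d : ℝ) := Real.log_nonneg hd1
    have hlog : Real.log (d : ℝ) ≤ Real.log (n : ℝ) := Real.log_le_log hd0 hdn
    have hpow : (d : ℝ) ^ (1 - τ) = (d : ℝ) / (d : ℝ) ^ τ := by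
      rw [Real.rpow_sub hd0, Real.rpow_one]
    have hdτ : 0 < (d : ℝ) ^ τ := Real.rpow_pos_of_pos hd0 τ
    have hdτn : (d : ℝ) ^ τ ≤ (n : ℝ) ^ τ := Real.rpow_le_rpow hd0.le hdn hτ
    rw [hpow, div_div_eq_mul_div, div_eq_mul_inv]
    have hinv : 0 ≤ ((d : ℝ))⁻¹ := inv_nonneg.mpr hd0.le
    apply mul_le_mul_of_nonneg_right _ hinv
    calc (1 + Real.log (d : ℝ)) * (d : ℝ) ^ τ ≤ (1 + Real.log (n : ℝ)) * (n : ℝ) ^ τ :=
          mul_le_mul (by linarith) hdτn hdτ.le (by linarith)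
      _ = (n : ℝ) ^ τ * (1 + Real.log (n : ℝ)) := mul_comm _ _
  have hharm : ∑ d ∈ Finset.Icc 1 n, ((d : ℝ))⁻¹ ≤ 1 + Real.log (n : ℝ) := by
    have h := harmonic_le_one_add_log n
    rw [harmonic_eq_sum_Icc] at h
    push_cast at h
    exact h
  calc ∑ d ∈ Finset.Icc 1 n, (1 + Real.log (d : ℝ)) / (d : ℝ) ^ (1 - τ)
      ≤ ∑ d ∈ Finset.Icc 1 n, (n : ℝ) ^ τ * (1 + Real.log (n : ℝ)) * ((d : ℝ))⁻¹ :=
        Finset.sum_le_sum hterm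
    _ = (n : ℝ) ^ τ * (1 + Real.log (n : ℝ)) * ∑ d ∈ Finset.Icc 1 n, ((d : ℝ))⁻¹ := by
        rw [Finset.mul_sum]
    _ ≤ (n : ℝ) ^ τ * (1 + Real.log (n : ℝ)) * (1 + Real.log (n : ℝ)) :=
        mul_le_mul_of_nonneg_left hharm (mul_nonneg hnτ (by linarith))
    _ = (n : ℝ) ^ τ * (1 + Real.log (n : ℝ)) ^ 2 := by ring

end Vale.Agent.H8
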