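import Mathlib
import Vale.Agent.H8.BA.XDefs
import Vale.Agent.H8.BA.XHead

/-! TASK XD-COST (P028, owner helper8). PROVED (helper89); the statement is the stub statement, unchanged.
xdTail / xdPsi: see XDefs.lean (do not edit). xd_head (XHead.lean) is a black box:
sum_{d in Icc 1 n} (1 + log d)/d^(1-tau) <= n^tau (1 + log n)^2 for n >= 1, tau >= 0.
PROOF. Termwise over q in range (2^n): claim
  xdPsi tau psi q * G q <= (n^tau (1 + log n)^2 + 1) * xdPsi tau psi q,
where G q = sum_{d in q.divisors} w d, w d = (1 + log d)/d^(1-tau) >= 0 (xdW_nonneg).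
If xdTail tau q > 1 then xdPsi = 0 and both sides are 0. Otherwise xdPsi = psi q >= 0 and it
suffices to show G q <= n^tau (1+log n)^2 + 1. For q = 0 the divisor set is empty. For q >= 1
put k = Nat.log 2 q; k < n because q < 2^n (Nat.log_lt_of_lt_pow). Split the divisors by
d <= k or k < d (Finset.sum_filter_add_sum_filter_not): the second part is xdTail tau q <= 1;
the first part is a sum of nonnegative terms over a subset of Finset.Icc 1 k, itself a subset of
Finset.Icc 1 n, so it is <= sum_{d in Icc 1 n} w d <= n^tau (1 + log n)^2 by xd_head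
(Finset.sum_le_sum_of_subset_of_nonneg). Then Finset.mul_sum. Helper lemmas: prefix xcs_. -/

namespace Vale.Agent.H8

theorem xd_cost (τ : ℝ) (hτ : 0 ≤ τ) (ψ : ℕ → ℝ) (h0 : ∀ q, 0 ≤ ψ q) (n : ℕ) (hn : 1 ≤ n) :
    ∑ q ∈ Finset.range (2 ^ n),
        xdPsi τ ψ q * ∑ d ∈ q.divisors, (1 + Real.log (d : ℝ)) / (d : ℝ) ^ (1 - τ)
      ≤ ((n : ℝ) ^ τ * (1 + Real.log (n : ℝ)) ^ 2 + 1)
          * ∑ q ∈ Finset.range (2 ^ n), xdPsi τ ψ q := by
  rw [Finset.mul_sum]
  apply Finset.sum_le_sum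
  intro q hq
  rw [Finset.mem_range] at hq
  by_cases hT : xdTail τ q ≤ 1
  · have hG : ∑ d ∈ q.divisors, (1 + Real.log (d : ℝ)) / (d : ℝ) ^ (1 - τ) ≤
        (n : ℝ) ^ τ * (1 + Real.log (n : ℝ)) ^ 2 + 1 := by
      rw [← Finset.sum_filter_add_sum_filter_not q.divisors (fun d => Nat.log 2 q < d), add_comm]
      have h1 : ∑ d ∈ q.divisors.filter (fun d => ¬ Nat.log 2 q < d),
          (1 + Real.log (d : ℝ)) / (d : ℝ) ^ (1 - τ) ≤
          ∑ d ∈ Finset.Icc 1 n, (1 + Real.log (d : ℝ)) / (d : ℝ) ^ (1 - τ) := by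
        apply Finset.sum_le_sum_of_subset_of_nonneg
        · intro d hd
          rw [Finset.mem_filter] at hd
          have hq0 : q ≠ 0 := (Nat.mem_divisors.1 hd.1).2
          have hk : Nat.log 2 q < n := Nat.log_lt_of_lt_pow hq0 hq
          rw [Finset.mem_Icc]
          exact ⟨Nat.pos_of_mem_divisors hd.1, by omega⟩
        · intro d hd _
          rw [Finset.mem_Icc] at hd
          exact xdW_nonneg τ d hd.1
      have h2 := xd_head τ hτ n hn
      have h3 : ∑ d ∈ q.divisors.filter (fun d => Nat.log 2 q < d),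
          (1 + Real.log (d : ℝ)) / (d : ℝ) ^ (1 - τ) ≤ 1 := hT
      linarith
    calc xdPsi τ ψ q * ∑ d ∈ q.divisors, (1 + Real.log (d : ℝ)) / (d : ℝ) ^ (1 - τ)
        ≤ xdPsi τ ψ q * ((n : ℝ) ^ τ * (1 + Real.log (n : ℝ)) ^ 2 + 1) :=
          mul_le_mul_of_nonneg_left hG (xdPsi_nonneg τ ψ h0 q)
      _ = ((n : ℝ) ^ τ * (1 + Real.log (n : ℝ)) ^ 2 + 1) * xdPsi τ ψ q := mul_comm _ _
  · have h1 : xdPsi τ ψ q = 0 := by
      unfold xdPsi
      rw [if_neg hT]
    rw [h1]
    simp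

end Vale.Agent.H8
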