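import Mathlib
import Vale.Agent.H8.BA.XDefs
import Vale.Agent.H8.BA.BlockMean

/-! TASK XD-LOSS (P028, owner helper8), proved below; statement unchanged.
Here xdTail tau q = sum over the divisors d of q with Nat.log 2 q < d of (1 + log d)/d^(1-tau)
and xdPsi tau psi q = if xdTail tau q <= 1 then psi q else 0 (XDefs.lean; do not edit XDefs).
PROOF. Let B = Finset.Ico (2^k) (2^(k+1)) and w d = (1 + log d)/d^(1-tau) (>= 0 for d >= 1: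
xdW_nonneg). 0 <= c from hc 0. For q in B: Nat.log 2 q = k (Nat.log_eq_iff or
Nat.log_eq_of_pow_le_of_lt_pow), q >= 2^k > 0 and psi q <= c / q <= c / 2^k.
(1) psi q - xdPsi tau psi q <= (c / 2^k) * xdTail tau q: if xdTail <= 1 the left side is 0
    and the right side is >= 0 (xdTail_nonneg); otherwise it is psi q <= c/2^k <= (c/2^k) * xdTail.
(2) sum_{q in B} xdTail tau q = sum_{q in B} sum_{d in q.divisors} (if k < d then w d else 0)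
    (Finset.sum_filter, using Nat.log 2 q = k)
    = sum_{d in Ico 1 (2 * 2^k)} (if k < d then w d else 0) * #{q in Ico (2^k) (2 * 2^k) : d | q}
    (bkm_swap of BlockMean.lean with A = 2^k)
    <= sum_{d in Ico 1 (2 * 2^k)} (if k < d then w d else 0) * (2 * 2^k / d)   (bkm_card_le)
    = 2 * 2^k * sum_{d in Ico (k+1) (2^(k+1))} w d / d   (the terms with d <= k vanish;
    Finset.sum_filter / sum_subset; 2 * 2^k = 2^(k+1) by pow_succ').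
(3) Multiply: (c / 2^k) * 2 * 2^k = 2 c. Helper lemmas inside this file whose names start with xls_. -/

namespace Vale.Agent.H8

/-- On the dyadic block the binary logarithm is constant. -/
lemma xls_log (k q : ℕ) (hq : q ∈ Finset.Ico ((2 : ℕ) ^ k) ((2 : ℕ) ^ (k + 1))) :
    Nat.log 2 q = k := by
  rw [Finset.mem_Ico] at hq
  exact Nat.log_eq_of_pow_le_of_lt_pow hq.1 hq.2

/-- Pointwise loss of the truncation. -/
lemma xls_point (τ c : ℝ) (ψ : ℕ → ℝ) (h0 : ∀ q, 0 ≤ ψ q)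
    (hc : ∀ q : ℕ, (q : ℝ) * ψ q ≤ c) (k q : ℕ)
    (hq : q ∈ Finset.Ico ((2 : ℕ) ^ k) ((2 : ℕ) ^ (k + 1))) :
    ψ q - xdPsi τ ψ q ≤ c / (2 : ℝ) ^ k * xdTail τ q := by
  have hc0 : 0 ≤ c := by
    have h := hc 0
    simpa using h
  rw [Finset.mem_Ico] at hq
  have h2k : (0 : ℝ) < (2 : ℝ) ^ k := by positivity
  have hq2 : (2 : ℝ) ^ k ≤ (q : ℝ) := by exact_mod_cast hq.1
  have hψ : ψ q ≤ c / (2 : ℝ) ^ k := by
    rw [le_div_iff₀ h2k]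
    have h1 := hc q
    have h2 : ψ q * (2 : ℝ) ^ k ≤ ψ q * q := mul_le_mul_of_nonneg_left hq2 (h0 q)
    linarith
  have hT := xdTail_nonneg τ q
  have hck : 0 ≤ c / (2 : ℝ) ^ k := div_nonneg hc0 h2k.le
  unfold xdPsi
  split_ifs with h
  · rw [sub_self]
    exact mul_nonneg hck hT
  · rw [sub_zero]
    have h1 : (1 : ℝ) ≤ xdTail τ q := le_of_lt (not_le.mp h)
    calc ψ q ≤ c / (2 : ℝ) ^ k := hψ
      _ = c / (2 : ℝ) ^ k * 1 := (mul_one _).symm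
      _ ≤ c / (2 : ℝ) ^ k * xdTail τ q := mul_le_mul_of_nonneg_left h1 hck

/-- The sum of the tails over a dyadic block. -/
lemma xls_tail_sum (τ : ℝ) (k : ℕ) :
    ∑ q ∈ Finset.Ico ((2 : ℕ) ^ k) ((2 : ℕ) ^ (k + 1)), xdTail τ q
      ≤ 2 * (2 : ℝ) ^ k * ∑ d ∈ Finset.Ico (k + 1) ((2 : ℕ) ^ (k + 1)),
          (1 + Real.log (d : ℝ)) / (d : ℝ) ^ (1 - τ) / (d : ℝ) := by
  have hpow : (2 : ℕ) ^ (k + 1) = 2 * 2 ^ k := pow_succ' 2 k
  obtain ⟨f, hf⟩ : ∃ f : ℕ → ℝ, f = fun d =>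
      if k < d then (1 + Real.log (d : ℝ)) / (d : ℝ) ^ (1 - τ) else 0 := ⟨_, rfl⟩
  have hfd : ∀ d, f d = if k < d then (1 + Real.log (d : ℝ)) / (d : ℝ) ^ (1 - τ) else 0 := by
    intro d
    rw [hf]
  have hf0 : ∀ d, 0 ≤ f d := by
    intro d
    rw [hfd]
    split_ifs with h
    · exact xdW_nonneg τ d (by omega)
    · exact le_rfl
  have h1 : ∀ q ∈ Finset.Ico ((2 : ℕ) ^ k) ((2 : ℕ) ^ (k + 1)),
      xdTail τ q = ∑ d ∈ q.divisors, f d := by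
    intro q hq
    unfold xdTail
    rw [xls_log k q hq, Finset.sum_filter]
    exact Finset.sum_congr rfl (fun d _ => (hfd d).symm)
  rw [Finset.sum_congr rfl h1, hpow, bkm_swap f (2 ^ k)]
  have h2 : ∑ d ∈ Finset.Ico 1 (2 * 2 ^ k),
        f d * ((Finset.filter (fun q => d ∣ q) (Finset.Ico (2 ^ k) (2 * 2 ^ k))).card : ℝ)
      ≤ ∑ d ∈ Finset.Ico 1 (2 * 2 ^ k), f d * (2 * ((2 ^ k : ℕ) : ℝ) / (d : ℝ)) :=
    Finset.sum_le_sum (fun d _ => mul_le_mul_of_nonneg_left (bkm_card_le (2 ^ k) d) (hf0 d))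
  refine le_trans h2 ?_
  have h3 : ∑ d ∈ Finset.Ico 1 (2 * 2 ^ k), f d * (2 * ((2 ^ k : ℕ) : ℝ) / (d : ℝ))
      = ∑ d ∈ Finset.Ico (k + 1) (2 * 2 ^ k),
          (1 + Real.log (d : ℝ)) / (d : ℝ) ^ (1 - τ) * (2 * ((2 ^ k : ℕ) : ℝ) / (d : ℝ)) := by
    have hset : Finset.Ico (k + 1) (2 * 2 ^ k)
        = (Finset.Ico 1 (2 * 2 ^ k)).filter (fun d => k < d) := by
      ext d
      simp only [Finset.mem_filter, Finset.mem_Ico]
      omega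
    rw [hset, Finset.sum_filter]
    refine Finset.sum_congr rfl (fun d _ => ?_)
    rw [hfd]
    split_ifs with h
    · rfl
    · rw [zero_mul]
  rw [h3, Finset.mul_sum]
  refine le_of_eq (Finset.sum_congr rfl (fun d _ => ?_))
  push_cast
  ring

theorem xd_loss (τ c : ℝ) (ψ : ℕ → ℝ) (h0 : ∀ q, 0 ≤ ψ q)
    (hc : ∀ q : ℕ, (q : ℝ) * ψ q ≤ c) (k : ℕ) :
    ∑ q ∈ Finset.Ico ((2 : ℕ) ^ k) ((2 : ℕ) ^ (k + 1)), (ψ q - xdPsi τ ψ q)
      ≤ 2 * c * ∑ d ∈ Finset.Ico (k + 1) ((2 : ℕ) ^ (k + 1)),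
          (1 + Real.log (d : ℝ)) / (d : ℝ) ^ (1 - τ) / (d : ℝ) := by
  have hc0 : 0 ≤ c := by
    have h := hc 0
    simpa using h
  have h2k : (0 : ℝ) < (2 : ℝ) ^ k := by positivity
  calc ∑ q ∈ Finset.Ico ((2 : ℕ) ^ k) ((2 : ℕ) ^ (k + 1)), (ψ q - xdPsi τ ψ q)
      ≤ ∑ q ∈ Finset.Ico ((2 : ℕ) ^ k) ((2 : ℕ) ^ (k + 1)), c / (2 : ℝ) ^ k * xdTail τ q :=
        Finset.sum_le_sum (fun q hq => xls_point τ c ψ h0 hc k q hq)
    _ = c / (2 : ℝ) ^ k * ∑ q ∈ Finset.Ico ((2 : ℕ) ^ k) ((2 : ℕ) ^ (k + 1)), xdTail τ q := by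
        rw [Finset.mul_sum]
    _ ≤ c / (2 : ℝ) ^ k * (2 * (2 : ℝ) ^ k * ∑ d ∈ Finset.Ico (k + 1) ((2 : ℕ) ^ (k + 1)),
          (1 + Real.log (d : ℝ)) / (d : ℝ) ^ (1 - τ) / (d : ℝ)) :=
        mul_le_mul_of_nonneg_left (xls_tail_sum τ k) (div_nonneg hc0 h2k.le)
    _ = 2 * c * ∑ d ∈ Finset.Ico (k + 1) ((2 : ℕ) ^ (k + 1)),
          (1 + Real.log (d : ℝ)) / (d : ℝ) ^ (1 - τ) / (d : ℝ) := by
        field_simp

end Vale.Agent.H8
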