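import Mathlib

/-! TASK XD-TAIL (P028, owner helper8). Keep the statement EXACTLY.
PROOF. Put s := (1 - tau)/2 in (0, 1/2], so 2 s = 1 - tau and 1/s^2 = 4/(1-tau)^2.
(a) The term d = m (if m < M): (1 + log m)/m^(1-tau)/m <= (1 + log m)/m^(1-tau) since m >= 1.
(b) For d > m (real numbers, d >= m >= 1): 1 + log d <= (1 + log m) * (1/s) * (d/m)^s.
    Indeed (d/m)^s >= 1 + s log(d/m) (Real.add_one_le_exp after rpow_def, or
    Real.log_le_rpow_div / Real.log_le_sub_one_of_pos), so (1/s)(d/m)^s >= 1/s + log(d/m)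
    >= 1 + log(d/m) (s <= 1), and (1 + log m)(1 + log(d/m)) >= 1 + log m + log(d/m) = 1 + log d
    (both logs are >= 0; Real.log_div).
    Hence (1 + log d)/d^(1-tau)/d <= (1 + log m) * (1/s) * m^(-s) * d^(-1-s)
    (exponents: s - (1 - tau) - 1 = -1 - s).
(c) For real s > 0 and natural d >= 2: s * d^(-1-s) <= (d-1)^(-s) - d^(-s).
    [with u := (d-1)/d in (0,1): u^s <= 1 - s (1 - u) by concavity
    (Real.rpow_one_add_le_one_add_mul_self / Bernoulli for exponents in [0,1]),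
    so (d-1)^(-s) = d^(-s) / u^s >= d^(-s) / (1 - s/d) >= d^(-s) (1 + s/d).]
    Telescoping over d in Ioo m M: sum_{m < d < M} d^(-1-s) <= m^(-s) / s.
(d) Total: sum_{m<d<M} <= (1 + log m) * (1/s^2) * m^(-2s) = (4/(1-tau)^2) * (1 + log m)/m^(1-tau).
Add (a). Helper lemmas inside this file with prefix xtl_. -/

namespace Vale.Agent.H8

theorem xtl_log (s x : ℝ) (hs : 0 < s) (hs1 : s ≤ 1) (hx : 1 ≤ x) :
    1 + Real.log x ≤ (1 / s) * x ^ s := by
  have hx0 : 0 < x := by linarith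
  have h1 : 1 + s * Real.log x ≤ x ^ s := by
    rw [Real.rpow_def_of_pos hx0]
    have := Real.add_one_le_exp (Real.log x * s)
    linarith
  have h2 : (1 / s) * (1 + s * Real.log x) ≤ (1 / s) * x ^ s :=
    mul_le_mul_of_nonneg_left h1 (by positivity)
  have e : (1 / s) * (1 + s * Real.log x) = 1 / s + Real.log x := by
    field_simp
  have h3 : 1 ≤ 1 / s := by
    rw [le_div_iff₀ hs]
    linarith
  linarith

theorem xtl_step (s x : ℝ) (hs : 0 < s) (hx : 1 < x) :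
    s / (x ^ s * x) ≤ 1 / (x - 1) ^ s - 1 / x ^ s := by
  have hx0 : 0 < x := by linarith
  have hx1 : 0 < x - 1 := by linarith
  have hxs : 0 < x ^ s := Real.rpow_pos_of_pos hx0 s
  have hx1s : 0 < (x - 1) ^ s := Real.rpow_pos_of_pos hx1 s
  have hy : 0 < x / (x - 1) := div_pos hx0 hx1
  have h1 : (x / (x - 1)) ^ s = x ^ s / (x - 1) ^ s := Real.div_rpow hx0.le hx1.le s
  have h2 : 1 + s * Real.log (x / (x - 1)) ≤ (x / (x - 1)) ^ s := by
    rw [Real.rpow_def_of_pos hy]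
    have := Real.add_one_le_exp (Real.log (x / (x - 1)) * s)
    linarith
  have h3 : 1 - (x - 1) / x ≤ Real.log (x / (x - 1)) := by
    have h := Real.log_le_sub_one_of_pos (div_pos hx1 hx0)
    have e : Real.log ((x - 1) / x) = - Real.log (x / (x - 1)) := by
      rw [← Real.log_inv, inv_div]
    linarith
  have h4 : 1 + s / x ≤ x ^ s / (x - 1) ^ s := by
    have e : 1 - (x - 1) / x = 1 / x := by
      field_simp
      ring
    have h : s * (1 / x) ≤ s * Real.log (x / (x - 1)) := by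
      apply mul_le_mul_of_nonneg_left _ hs.le
      linarith
    have e2 : s * (1 / x) = s / x := by ring
    linarith
  have h5 : (1 + s / x) * (x - 1) ^ s ≤ x ^ s := by
    rwa [le_div_iff₀ hx1s] at h4
  have h6 : (1 + s / x) * (x - 1) ^ s * x ≤ x ^ s * x := mul_le_mul_of_nonneg_right h5 hx0.le
  have e4 : (1 + s / x) * (x - 1) ^ s * x = (x - 1) ^ s * x + s * (x - 1) ^ s := by
    field_simp
  have e3 : 1 / (x - 1) ^ s - 1 / x ^ s = (x ^ s - (x - 1) ^ s) / ((x - 1) ^ s * x ^ s) := by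
    field_simp
  rw [e3, div_le_div_iff₀ (by positivity) (by positivity)]
  have h7 : s * (x - 1) ^ s ≤ (x ^ s - (x - 1) ^ s) * x := by linarith
  have h8 : s * (x - 1) ^ s * x ^ s ≤ (x ^ s - (x - 1) ^ s) * x * x ^ s :=
    mul_le_mul_of_nonneg_right h7 hxs.le
  linarith

theorem xtl_term (s : ℝ) (hs : 0 < s) (hs1 : s ≤ 1) (m d : ℝ) (hm : 1 ≤ m) (hd : m < d) :
    (1 + Real.log d) / d ^ (2 * s) / d ≤
      (1 + Real.log m) / (s ^ 2 * m ^ s) * (1 / (d - 1) ^ s - 1 / d ^ s) := by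
  have hm0 : 0 < m := by linarith
  have hd0 : 0 < d := by linarith
  have hd1 : 1 < d := by linarith
  have hlm : 0 ≤ Real.log m := Real.log_nonneg hm
  have hx : 1 ≤ d / m := by
    rw [le_div_iff₀ hm0]
    linarith
  have hlx : 0 ≤ Real.log (d / m) := Real.log_nonneg hx
  have hlog : Real.log d = Real.log m + Real.log (d / m) := by
    rw [Real.log_div hd0.ne' hm0.ne']
    ring
  have hb := xtl_log s (d / m) hs hs1 hx
  have hdiv : (d / m) ^ s = d ^ s / m ^ s := Real.div_rpow hd0.le hm0.le s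
  have hms : 0 < m ^ s := Real.rpow_pos_of_pos hm0 s
  have hds : 0 < d ^ s := Real.rpow_pos_of_pos hd0 s
  have h2s : d ^ (2 * s) = d ^ s * d ^ s := by
    rw [two_mul, Real.rpow_add hd0]
  have hnum : 1 + Real.log d ≤ (1 + Real.log m) * ((1 / s) * (d ^ s / m ^ s)) := by
    rw [← hdiv]
    have h : 1 + Real.log d ≤ (1 + Real.log m) * (1 + Real.log (d / m)) := by
      rw [hlog]
      nlinarith [mul_nonneg hlm hlx]
    exact le_trans h (mul_le_mul_of_nonneg_left hb (by linarith))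
  have hstep := xtl_step s d hs hd1
  have hK : 0 ≤ (1 + Real.log m) / (s ^ 2 * m ^ s) := by
    apply div_nonneg (by linarith)
    positivity
  calc (1 + Real.log d) / d ^ (2 * s) / d
      ≤ (1 + Real.log m) * ((1 / s) * (d ^ s / m ^ s)) / d ^ (2 * s) / d := by
        apply div_le_div_of_nonneg_right _ hd0.le
        apply div_le_div_of_nonneg_right hnum
        rw [h2s]
        positivity
    _ = (1 + Real.log m) / (s ^ 2 * m ^ s) * (s / (d ^ s * d)) := by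
        rw [h2s]
        field_simp
    _ ≤ (1 + Real.log m) / (s ^ 2 * m ^ s) * (1 / (d - 1) ^ s - 1 / d ^ s) :=
        mul_le_mul_of_nonneg_left hstep hK

theorem xtl_sum (s : ℝ) (hs : 0 < s) (hs1 : s ≤ 1) (m : ℕ) (hm : 1 ≤ m) (M : ℕ)
    (hM : m + 1 ≤ M) :
    ∑ d ∈ Finset.Ico (m + 1) M, (1 + Real.log (d : ℝ)) / (d : ℝ) ^ (2 * s) / (d : ℝ) ≤
      (1 + Real.log (m : ℝ)) / (s ^ 2 * (m : ℝ) ^ s) *
        (1 / (m : ℝ) ^ s - 1 / ((M : ℝ) - 1) ^ s) := by
  induction M, hM using Nat.le_induction with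
  | base => simp
  | succ n hn ih =>
    rw [Finset.sum_Ico_succ_top hn]
    have hmR : (1 : ℝ) ≤ m := by exact_mod_cast hm
    have hnR : (m : ℝ) < n := by exact_mod_cast hn
    have ht := xtl_term s hs hs1 (m : ℝ) (n : ℝ) hmR hnR
    have e : ((n + 1 : ℕ) : ℝ) - 1 = n := by
      push_cast
      ring
    rw [e]
    have e2 : (1 + Real.log (m : ℝ)) / (s ^ 2 * (m : ℝ) ^ s) *
          (1 / (m : ℝ) ^ s - 1 / ((n : ℝ) - 1) ^ s) +
        (1 + Real.log (m : ℝ)) / (s ^ 2 * (m : ℝ) ^ s) *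
          (1 / ((n : ℝ) - 1) ^ s - 1 / (n : ℝ) ^ s) =
        (1 + Real.log (m : ℝ)) / (s ^ 2 * (m : ℝ) ^ s) *
          (1 / (m : ℝ) ^ s - 1 / (n : ℝ) ^ s) := by ring
    linarith

theorem xd_tail (τ : ℝ) (hτ : 0 ≤ τ) (hτ1 : τ < 1) (m M : ℕ) (hm : 1 ≤ m) :
    ∑ d ∈ Finset.Ico m M, (1 + Real.log (d : ℝ)) / (d : ℝ) ^ (1 - τ) / (d : ℝ)
      ≤ (1 + 4 / (1 - τ) ^ 2) * ((1 + Real.log (m : ℝ)) / (m : ℝ) ^ (1 - τ)) := by
  obtain ⟨s, hsdef⟩ : ∃ s : ℝ, s = (1 - τ) / 2 := ⟨_, rfl⟩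
  have hs : 0 < s := by
    rw [hsdef]
    linarith
  have hs1 : s ≤ 1 := by
    rw [hsdef]
    linarith
  have h2s : 1 - τ = 2 * s := by
    rw [hsdef]
    ring
  have hmR : (1 : ℝ) ≤ m := by exact_mod_cast hm
  have hm0 : (0 : ℝ) < m := by linarith
  have hlm : 0 ≤ Real.log (m : ℝ) := Real.log_nonneg hmR
  have hmpos : 0 < (m : ℝ) ^ (1 - τ) := Real.rpow_pos_of_pos hm0 _
  have hA : 0 ≤ (1 + Real.log (m : ℝ)) / (m : ℝ) ^ (1 - τ) :=
    div_nonneg (by linarith) hmpos.le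
  have hτ2 : 0 < (1 - τ) ^ 2 := by
    have : 0 < 1 - τ := by linarith
    positivity
  have hcoef : 0 ≤ 4 / (1 - τ) ^ 2 := by positivity
  by_cases hmM : M ≤ m
  · rw [Finset.Ico_eq_empty (by omega)]
    simp only [Finset.sum_empty]
    exact mul_nonneg (by linarith) hA
  · have hmM' : m + 1 ≤ M := by omega
    rw [Finset.sum_eq_sum_Ico_succ_bot (by omega)]
    have hfirst : (1 + Real.log (m : ℝ)) / (m : ℝ) ^ (1 - τ) / (m : ℝ)
        ≤ (1 + Real.log (m : ℝ)) / (m : ℝ) ^ (1 - τ) := div_le_self hA hmR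
    have hsum := xtl_sum s hs hs1 m hm M hmM'
    rw [← h2s] at hsum
    have hM1 : 0 ≤ 1 / ((M : ℝ) - 1) ^ s := by
      have h1 : ((m + 1 : ℕ) : ℝ) ≤ M := by exact_mod_cast hmM'
      push_cast at h1
      have h2 : (0 : ℝ) < (M : ℝ) - 1 := by linarith
      have h3 := Real.rpow_pos_of_pos h2 s
      positivity
    have hms : 0 < (m : ℝ) ^ s := Real.rpow_pos_of_pos hm0 s
    have hK : 0 ≤ (1 + Real.log (m : ℝ)) / (s ^ 2 * (m : ℝ) ^ s) := by
      apply div_nonneg (by linarith)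
      positivity
    have hmm : (m : ℝ) ^ (1 - τ) = (m : ℝ) ^ s * (m : ℝ) ^ s := by
      rw [h2s, two_mul, Real.rpow_add hm0]
    have e : (1 + Real.log (m : ℝ)) / (s ^ 2 * (m : ℝ) ^ s) * (1 / (m : ℝ) ^ s)
        = 4 / (1 - τ) ^ 2 * ((1 + Real.log (m : ℝ)) / (m : ℝ) ^ (1 - τ)) := by
      rw [hmm, h2s]
      field_simp
      ring
    have hle : (1 + Real.log (m : ℝ)) / (s ^ 2 * (m : ℝ) ^ s) *
          (1 / (m : ℝ) ^ s - 1 / ((M : ℝ) - 1) ^ s)
        ≤ (1 + Real.log (m : ℝ)) / (s ^ 2 * (m : ℝ) ^ s) * (1 / (m : ℝ) ^ s) := by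
      apply mul_le_mul_of_nonneg_left _ hK
      linarith
    have e5 : (1 + 4 / (1 - τ) ^ 2) * ((1 + Real.log (m : ℝ)) / (m : ℝ) ^ (1 - τ))
        = (1 + Real.log (m : ℝ)) / (m : ℝ) ^ (1 - τ)
          + 4 / (1 - τ) ^ 2 * ((1 + Real.log (m : ℝ)) / (m : ℝ) ^ (1 - τ)) := by ring
    linarith

end Vale.Agent.H8
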