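import Mathlib
import Vale.Agent.H8.BA.MainT
import Vale.Agent.H8.BA.Blocks
import Vale.Agent.H8.BA.XDefs
import Vale.Agent.H8.BA.XHead
import Vale.Agent.H8.BA.XTail
import Vale.Agent.H8.BA.XLoss
import Vale.Agent.H8.BA.XCost

namespace Vale.Agent.H8

open MeasureTheory Set Filter

/-- Reindexing `∑_{k < n} f (k+1) = ∑_{d ∈ Icc 1 n} f d`. -/
theorem xmn_reindex (f : ℕ → ℝ) (n : ℕ) :
    ∑ k ∈ Finset.range n, f (k + 1) = ∑ d ∈ Finset.Icc 1 n, f d := by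
  induction n with
  | zero => simp
  | succ n ih =>
    rw [Finset.sum_range_succ, ih]
    have h : Finset.Icc 1 (n + 1) = insert (n + 1) (Finset.Icc 1 n) := by
      ext d
      simp only [Finset.mem_Icc, Finset.mem_insert]
      omega
    rw [h, Finset.sum_insert (by simp), add_comm]

/-- The total mass removed by the truncation up to `2^n`. -/
theorem xd_total_loss (τ c : ℝ) (hτ : 0 ≤ τ) (hτ1 : τ < 1) (ψ : ℕ → ℝ) (h0 : ∀ q, 0 ≤ ψ q)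
    (hc : ∀ q : ℕ, (q : ℝ) * ψ q ≤ c) (n : ℕ) (hn : 1 ≤ n) :
    ∑ q ∈ Finset.range (2 ^ n), ψ q - ∑ q ∈ Finset.range (2 ^ n), xdPsi τ ψ q
      ≤ 2 * c * (1 + 4 / (1 - τ) ^ 2) * ((n : ℝ) ^ τ * (1 + Real.log (n : ℝ)) ^ 2) := by
  have hc0 : 0 ≤ c := by simpa using hc 0
  have hC : 0 ≤ 1 + 4 / (1 - τ) ^ 2 := by positivity
  rw [← Finset.sum_sub_distrib, sum_range_two_pow (fun q => ψ q - xdPsi τ ψ q) n, xdPsi_zero,
    sub_self, zero_add]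
  calc ∑ k ∈ Finset.range n,
        ∑ q ∈ Finset.Ico ((2 : ℕ) ^ k) ((2 : ℕ) ^ (k + 1)), (ψ q - xdPsi τ ψ q)
      ≤ ∑ k ∈ Finset.range n, 2 * c * ((1 + 4 / (1 - τ) ^ 2)
          * ((1 + Real.log ((k + 1 : ℕ) : ℝ)) / ((k + 1 : ℕ) : ℝ) ^ (1 - τ))) := by
        refine Finset.sum_le_sum (fun k _ => ?_)
        refine (xd_loss τ c ψ h0 hc k).trans ?_
        exact mul_le_mul_of_nonneg_left (xd_tail τ hτ hτ1 (k + 1) (2 ^ (k + 1)) (by omega))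
          (by positivity)
    _ = 2 * c * (1 + 4 / (1 - τ) ^ 2)
          * ∑ k ∈ Finset.range n,
              (1 + Real.log ((k + 1 : ℕ) : ℝ)) / ((k + 1 : ℕ) : ℝ) ^ (1 - τ) := by
        rw [Finset.mul_sum]
        refine Finset.sum_congr rfl (fun k _ => ?_)
        ring
    _ = 2 * c * (1 + 4 / (1 - τ) ^ 2)
          * ∑ d ∈ Finset.Icc 1 n, (1 + Real.log (d : ℝ)) / (d : ℝ) ^ (1 - τ) := by
        rw [xmn_reindex (fun d => (1 + Real.log (d : ℝ)) / (d : ℝ) ^ (1 - τ)) n]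
    _ ≤ 2 * c * (1 + 4 / (1 - τ) ^ 2) * ((n : ℝ) ^ τ * (1 + Real.log (n : ℝ)) ^ 2) :=
        mul_le_mul_of_nonneg_left (xd_head τ hτ n hn) (by positivity)

/-- The threshold function is at least `1` for `n ≥ 1`. -/
theorem xmn_theta_ge_one (τ : ℝ) (hτ : 0 ≤ τ) (n : ℕ) (hn : 1 ≤ n) :
    1 ≤ (n : ℝ) ^ τ * (1 + Real.log (n : ℝ)) ^ 2 := by
  have h1 : (1 : ℝ) ≤ n := by exact_mod_cast hn
  have h2 : (1 : ℝ) ≤ (n : ℝ) ^ τ := Real.one_le_rpow h1 hτ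
  have h3 : 0 ≤ Real.log (n : ℝ) := Real.log_nonneg h1
  have h4 : (1 : ℝ) ≤ (1 + Real.log (n : ℝ)) ^ 2 := by nlinarith
  nlinarith

/-- Extra divergence theorem for a shift of Diophantine type `τ < 1`: every `ψ = O(1/q)` whose
partial sums up to `2^n` exceed `A n^τ (1 + log n)^2` infinitely often, for every `A`. -/
theorem ba_extra_t (γ κ τ c : ℝ) (hκ : 0 < κ) (hτ : 0 ≤ τ) (hτ1 : τ < 1)
    (hγ : ∀ k : ℕ, 0 < k →
      κ ≤ (k : ℝ) ^ (1 + τ) * |(k : ℝ) * γ - round ((k : ℝ) * γ)|)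
    (ψ : ℕ → ℝ) (h0 : ∀ q, 0 ≤ ψ q) (hc : ∀ q : ℕ, (q : ℝ) * ψ q ≤ c)
    (hgrow : ∀ A : ℝ, ∃ᶠ n : ℕ in atTop,
      A * ((n : ℝ) ^ τ * (1 + Real.log (n : ℝ)) ^ 2) ≤ ∑ q ∈ Finset.range (2 ^ n), ψ q) :
    ∀ᵐ x : ℝ, ∃ᶠ q : ℕ in atTop, |(q : ℝ) * x - γ - round ((q : ℝ) * x - γ)| < ψ q := by
  classical
  have h0' : ∀ q, 0 ≤ xdPsi τ ψ q := xdPsi_nonneg τ ψ h0
  have hle : ∀ q, xdPsi τ ψ q ≤ ψ q := xdPsi_le τ ψ h0
  have hc' : ∀ q : ℕ, (q : ℝ) * xdPsi τ ψ q ≤ c := fun q =>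
    (mul_le_mul_of_nonneg_left (hle q) (Nat.cast_nonneg q)).trans (hc q)
  have hc0 : 0 ≤ c := by simpa using hc 0
  set C₁ : ℝ := 2 * c * (1 + 4 / (1 - τ) ^ 2) with hC₁def
  have hC₁ : 0 ≤ C₁ := by rw [hC₁def]; positivity
  -- half of the mass survives
  have key : ∀ A : ℝ, 2 * C₁ ≤ A → ∀ n : ℕ, 1 ≤ n →
      A * ((n : ℝ) ^ τ * (1 + Real.log (n : ℝ)) ^ 2) ≤ ∑ q ∈ Finset.range (2 ^ n), ψ q →
      (∑ q ∈ Finset.range (2 ^ n), ψ q) / 2 ≤ ∑ q ∈ Finset.range (2 ^ n), xdPsi τ ψ q := by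
    intro A hA n hn hP
    have hloss := xd_total_loss τ c hτ hτ1 ψ h0 hc n hn
    have hΘ := xmn_theta_ge_one τ hτ n hn
    have h1 : C₁ * ((n : ℝ) ^ τ * (1 + Real.log (n : ℝ)) ^ 2)
        ≤ A / 2 * ((n : ℝ) ^ τ * (1 + Real.log (n : ℝ)) ^ 2) :=
      mul_le_mul_of_nonneg_right (by linarith) (by linarith)
    rw [← hC₁def] at hloss
    linarith
  -- the truncated function still has divergent sum
  have hdiv' : ¬ Summable (xdPsi τ ψ) := by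
    intro hs
    set S : ℝ := ∑' q, xdPsi τ ψ q with hS
    have hS0 : 0 ≤ S := tsum_nonneg h0'
    obtain ⟨n, hn1, hn⟩ := ((hgrow (max (2 * C₁) (2 * (S + 1)))).and_eventually
      (eventually_ge_atTop 1)).exists
    have hΘ := xmn_theta_ge_one τ hτ n hn
    have hk := key (max (2 * C₁) (2 * (S + 1))) (le_max_left _ _) n hn hn1
    have hb : ∑ q ∈ Finset.range (2 ^ n), xdPsi τ ψ q ≤ S := hs.sum_le_tsum _ (fun q _ => h0' q)
    have hA : 2 * (S + 1) ≤ max (2 * C₁) (2 * (S + 1)) := le_max_right _ _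
    have hA0 : 0 ≤ max (2 * C₁) (2 * (S + 1)) := by linarith
    have h2 : max (2 * C₁) (2 * (S + 1)) * 1
        ≤ max (2 * C₁) (2 * (S + 1)) * ((n : ℝ) ^ τ * (1 + Real.log (n : ℝ)) ^ 2) :=
      mul_le_mul_of_nonneg_left hΘ hA0
    linarith
  have hmain := ba_main_t γ κ τ c hκ hτ hγ (xdPsi τ ψ) h0' hc' hdiv' ?_
  · filter_upwards [hmain] with x hx
    exact hx.mono (fun q hq => lt_of_lt_of_le hq (hle q))
  · intro ε hε
    have htend : Tendsto (fun n : ℕ => 2 ^ n) atTop atTop :=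
      tendsto_pow_atTop_atTop_of_one_lt (by norm_num)
    refine htend.frequently ?_
    refine ((hgrow (max (2 * C₁) (4 / ε))).and_eventually (eventually_ge_atTop 1)).mono ?_
    rintro n ⟨hP, hn⟩
    have hΘ := xmn_theta_ge_one τ hτ n hn
    have hk := key (max (2 * C₁) (4 / ε)) (le_max_left _ _) n hn hP
    have hcost := xd_cost τ hτ ψ h0 n hn
    set P := ∑ q ∈ Finset.range (2 ^ n), ψ q with hPdef
    set P' := ∑ q ∈ Finset.range (2 ^ n), xdPsi τ ψ q with hP'def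
    set Θ := (n : ℝ) ^ τ * (1 + Real.log (n : ℝ)) ^ 2 with hΘdef
    have hP'0 : 0 ≤ P' := Finset.sum_nonneg (fun q _ => h0' q)
    have hA : 4 / ε ≤ max (2 * C₁) (4 / ε) := le_max_right _ _
    have h4 : 0 < 4 / ε := by positivity
    -- Θ * (4/ε) ≤ P
    have h5 : 4 / ε * Θ ≤ P := (mul_le_mul_of_nonneg_right hA (by linarith)).trans hP
    have h6 : 4 * Θ ≤ ε * P := by
      have := mul_le_mul_of_nonneg_left h5 hε.le
      have e : ε * (4 / ε * Θ) = 4 * Θ := by field_simp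
      linarith
    -- Θ + 1 ≤ ε * P'
    have h7 : Θ + 1 ≤ ε * P' := by
      have : ε * (P / 2) ≤ ε * P' := mul_le_mul_of_nonneg_left hk hε.le
      nlinarith
    calc ∑ q ∈ Finset.range (2 ^ n),
          xdPsi τ ψ q * ∑ d ∈ q.divisors, (1 + Real.log (d : ℝ)) / (d : ℝ) ^ (1 - τ)
        ≤ (Θ + 1) * P' := hcost
      _ ≤ ε * P' * P' := mul_le_mul_of_nonneg_right h7 hP'0
      _ = ε * P' ^ 2 := by ring

end Vale.Agent.H8
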